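import Mathlib.Topology.Compactification.OnePoint.Sphere
import Mathlib.Topology.TietzeExtension
import Mathlib.Topology.UrysohnsLemma
import Mathlib.Topology.UnitInterval
import Mathlib.Analysis.Complex.Tietze

/-!
# P093, block N2/Borsuk: homotopy extension for maps to spheres

Borsuk's homotopy extension theorem for closed subsets of compact Hausdorff spaces and maps to the
one-point compactification of `ℝⁿ`.
-/

open Topology OnePoint

namespace Vale.Agent.P093.N2

/-- The sphere is a neighbourhood retract of a vector space. -/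
theorem exists_sphere_retr (n : ℕ) :
    ∃ (e : OnePoint (Fin n → ℝ) → EuclideanSpace ℝ (Fin (n + 1)))
      (r : EuclideanSpace ℝ (Fin (n + 1)) → OnePoint (Fin n → ℝ)),
      Continuous e ∧ (∀ y, e y ≠ 0) ∧ ContinuousOn r {0}ᶜ ∧ ∀ y, r (e y) = y := by
  classical
  let h : OnePoint (Fin n → ℝ) ≃ₜ Metric.sphere (0 : EuclideanSpace ℝ (Fin (n + 1))) 1 :=
    onePointEquivSphereOfFinrankEq (ι := Fin (n + 1)) (V := Fin n → ℝ) (by simp)
  have hn : ∀ x : EuclideanSpace ℝ (Fin (n + 1)), x ≠ 0 →
      ‖x‖⁻¹ • x ∈ Metric.sphere (0 : EuclideanSpace ℝ (Fin (n + 1))) 1 := by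
    intro x hx
    rw [mem_sphere_zero_iff_norm, norm_smul, norm_inv, norm_norm]
    exact inv_mul_cancel₀ (norm_ne_zero_iff.mpr hx)
  refine ⟨fun y => (h y : EuclideanSpace ℝ (Fin (n + 1))),
    fun x => if hx : x ≠ 0 then h.symm ⟨‖x‖⁻¹ • x, hn x hx⟩ else ∞, ?_, ?_, ?_, ?_⟩
  · exact continuous_subtype_val.comp h.continuous
  · intro y hy
    have hy' : (h y : EuclideanSpace ℝ (Fin (n + 1))) = 0 := hy
    have := (h y).2
    rw [hy', mem_sphere_zero_iff_norm, norm_zero] at this
    exact zero_ne_one this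
  · rw [continuousOn_iff_continuous_domRestrict]
    have h1 : Continuous fun x : ({0}ᶜ : Set (EuclideanSpace ℝ (Fin (n + 1)))) =>
        h.symm ⟨‖(x : EuclideanSpace ℝ (Fin (n + 1)))‖⁻¹ • (x : EuclideanSpace ℝ (Fin (n + 1))),
          hn x x.2⟩ := by
      refine h.symm.continuous.comp (Continuous.subtype_mk ?_ _)
      exact (Continuous.inv₀ (continuous_norm.comp continuous_subtype_val)
        (fun x => norm_ne_zero_iff.mpr x.2)).smul continuous_subtype_val
    convert h1 using 1
    funext x
    have hx : (x : EuclideanSpace ℝ (Fin (n + 1))) ≠ 0 := x.2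
    simp only [Set.domRestrict_apply]
    rw [dif_pos hx]
  · intro y
    have hy : (h y : EuclideanSpace ℝ (Fin (n + 1))) ≠ 0 := by
      intro hy
      have := (h y).2
      rw [hy, mem_sphere_zero_iff_norm, norm_zero] at this
      exact zero_ne_one this
    have hnorm : ‖(h y : EuclideanSpace ℝ (Fin (n + 1)))‖ = 1 := by
      have := (h y).2
      rwa [mem_sphere_zero_iff_norm] at this
    simp only
    rw [dif_pos hy]
    apply h.injective
    rw [Homeomorph.apply_symm_apply]
    apply Subtype.ext
    simp [hnorm]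

/-- **Borsuk's homotopy extension theorem** for maps to spheres. -/
theorem hep_sphere {Q : Type} [TopologicalSpace Q] [CompactSpace Q] [T2Space Q] (n : ℕ)
    {D : Set Q} (hD : IsClosed D) (f : Q → OnePoint (Fin n → ℝ)) (hf : Continuous f)
    (H : D × unitInterval → OnePoint (Fin n → ℝ)) (hH : Continuous H)
    (h0 : ∀ d : D, H (d, 0) = f d) :
    ∃ K : Q × unitInterval → OnePoint (Fin n → ℝ), Continuous K ∧ (∀ q, K (q, 0) = f q) ∧
      ∀ (d : D) (t : unitInterval), K (d, t) = H (d, t) := by
  classical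
  obtain ⟨e, r, he, he0, hr, hre⟩ := exists_sphere_retr n
  -- the closed subset where the map is given
  let C : Set (Q × unitInterval) := (D ×ˢ Set.univ) ∪ (Set.univ ×ˢ {0})
  have hC1 : IsClosed (D ×ˢ (Set.univ : Set unitInterval)) := hD.prod isClosed_univ
  have hC2 : IsClosed ((Set.univ : Set Q) ×ˢ ({0} : Set unitInterval)) :=
    isClosed_univ.prod isClosed_singleton
  have hC : IsClosed C := hC1.union hC2
  let g : Q × unitInterval → EuclideanSpace ℝ (Fin (n + 1)) := fun p =>
    if h : p.1 ∈ D then e (H (⟨p.1, h⟩, p.2)) else e (f p.1)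
  have hgD : ∀ (d : D) (t : unitInterval), g (d, t) = e (H (d, t)) := by
    intro d t
    simp only [g]
    rw [dif_pos d.2]
  have hg0 : ∀ q : Q, g (q, 0) = e (f q) := by
    intro q
    simp only [g]
    split_ifs with h
    · rw [h0 ⟨q, h⟩]
    · rfl
  have hgc1 : ContinuousOn g (D ×ˢ (Set.univ : Set unitInterval)) := by
    rw [continuousOn_iff_continuous_domRestrict]
    have h1 : Continuous fun p : (D ×ˢ (Set.univ : Set unitInterval) : Set (Q × unitInterval)) =>
        e (H (⟨p.1.1, p.2.1⟩, p.1.2)) := by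
      refine he.comp (hH.comp (Continuous.prodMk ?_ ?_))
      · exact Continuous.subtype_mk (continuous_fst.comp continuous_subtype_val) _
      · exact continuous_snd.comp continuous_subtype_val
    convert h1 using 1
    funext p
    exact hgD ⟨p.1.1, p.2.1⟩ p.1.2
  have hgc2 : ContinuousOn g ((Set.univ : Set Q) ×ˢ ({0} : Set unitInterval)) := by
    have h1 : ContinuousOn (fun p : Q × unitInterval => e (f p.1))
        ((Set.univ : Set Q) ×ˢ ({0} : Set unitInterval)) :=
      (he.comp (hf.comp continuous_fst)).continuousOn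
    refine h1.congr ?_
    rintro ⟨q, t⟩ ⟨-, ht⟩
    obtain rfl : t = 0 := ht
    exact hg0 q
  have hgc : ContinuousOn g C := hgc1.union_of_isClosed hgc2 hC1 hC2
  obtain ⟨G, hG⟩ := ContinuousMap.exists_restrict_eq hC
    (⟨C.domRestrict g, continuousOn_iff_continuous_domRestrict.mp hgc⟩ :
      C(C, EuclideanSpace ℝ (Fin (n + 1))))
  have hGg : ∀ p ∈ C, G p = g p := by
    intro p hp
    have := congrArg (fun F : C(C, EuclideanSpace ℝ (Fin (n + 1))) => F ⟨p, hp⟩) hG
    exact this
  -- the neighbourhood on which the extension is nonzero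
  let O : Set (Q × unitInterval) := {p | G p ≠ 0}
  have hO : IsOpen O := isOpen_ne_fun G.continuous continuous_const
  let V : Set Q := (Prod.fst '' Oᶜ)ᶜ
  have hV : IsOpen V := by
    have : IsClosedMap (Prod.fst : Q × unitInterval → Q) := isClosedMap_fst_of_compactSpace
    exact (this _ hO.isClosed_compl).isOpen_compl
  have hVO : ∀ q ∈ V, ∀ t, (q, t) ∈ O := by
    intro q hq t
    by_contra h
    exact hq ⟨(q, t), h, rfl⟩
  have hDV : D ⊆ V := by
    rintro q hq ⟨⟨q', t⟩, h1, rfl⟩
    apply h1
    change G (q', t) ≠ 0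
    rw [hGg _ (Or.inl ⟨hq, Set.mem_univ _⟩), hgD ⟨q', hq⟩ t]
    exact he0 _
  obtain ⟨u, hu0, hu1, hu⟩ := exists_continuous_zero_one_of_isClosed hV.isClosed_compl hD
    (Set.disjoint_left.mpr fun q hq hq' => hq (hDV hq'))
  -- the time change
  let s : Q × unitInterval → unitInterval := fun p => ⟨u p.1 * p.2, by
    have h1 := hu p.1
    have h2 := p.2.2
    exact ⟨mul_nonneg h1.1 h2.1, mul_le_one₀ h1.2 h2.1 h2.2⟩⟩
  have hs : Continuous s := by
    refine Continuous.subtype_mk ?_ _
    exact (u.continuous.comp continuous_fst).mul (continuous_subtype_val.comp continuous_snd)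
  have hsO : ∀ p : Q × unitInterval, G (p.1, s p) ≠ 0 := by
    intro p
    by_cases hp : p.1 ∈ V
    · exact hVO p.1 hp _
    · have h1 : s p = 0 := by
        apply Subtype.ext
        change u p.1 * p.2 = 0
        rw [hu0 hp]
        simp
      rw [h1, hGg _ (Or.inr ⟨Set.mem_univ _, Set.mem_singleton _⟩), hg0]
      exact he0 _
  refine ⟨fun p => r (G (p.1, s p)), ?_, ?_, ?_⟩
  · have h1 : Continuous fun p : Q × unitInterval => G (p.1, s p) :=
      G.continuous.comp (continuous_fst.prodMk hs)
    rw [← continuousOn_univ]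
    exact hr.comp h1.continuousOn (fun p _ => hsO p)
  · intro q
    have h1 : s (q, 0) = 0 := by
      apply Subtype.ext
      change u q * ((0 : unitInterval) : ℝ) = 0
      simp
    change r (G (q, s (q, 0))) = f q
    rw [h1, hGg _ (Or.inr ⟨Set.mem_univ _, Set.mem_singleton _⟩), hg0, hre]
  · intro d t
    have h1 : s ((d : Q), t) = t := by
      apply Subtype.ext
      change u d * (t : ℝ) = t
      rw [hu1 d.2]
      simp
    change r (G ((d : Q), s ((d : Q), t))) = H (d, t)
    rw [h1, hGg _ (Or.inl ⟨d.2, Set.mem_univ _⟩), hgD, hre]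

end Vale.Agent.P093.N2
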