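import Mathlib.NumberTheory.Padics.PadicVal.Basic
import Mathlib.Algebra.Field.ZMod
import Mathlib.Data.Nat.Choose.Dvd
import Mathlib.FieldTheory.Finite.Basic

/-!
# P093, part N2 (block 2D): the number `(m ^ p - m) / p`

If `p ∣ m` and `m ≠ 0`, the `p`-adic valuation drops by exactly one.
-/

namespace Vale.Agent.P093.N2

/-- the Euler characteristic of the quadratic construction -/
def qchi (p : ℕ) (m : ℤ) : ℤ := (m ^ p - m) / p

theorem dvd_pow_sub {p : ℕ} (hp : p.Prime) (m : ℤ) : (p : ℤ) ∣ m ^ p - m := by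
  have := Fact.mk hp
  rw [← ZMod.intCast_zmod_eq_zero_iff_dvd (m ^ p - m) p]
  push_cast
  rw [ZMod.pow_card, sub_self]

theorem mul_qchi {p : ℕ} (hp : p.Prime) (m : ℤ) : (p : ℤ) * qchi p m = m ^ p - m :=
  Int.mul_ediv_cancel' (dvd_pow_sub hp m)

theorem qchi_eq_iff {p : ℕ} (hp : p.Prime) (m c : ℤ) : qchi p m = c ↔ (p : ℤ) * c = m ^ p - m := by
  rw [← mul_qchi hp m]
  constructor
  · rintro rfl; rfl
  · intro h
    exact (mul_left_cancel₀ (Int.natCast_ne_zero.2 hp.ne_zero) h).symm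

theorem qchi_zero {p : ℕ} (hp : p.Prime) : qchi p 0 = 0 := by
  rw [qchi_eq_iff hp, zero_pow hp.ne_zero]; simp

theorem qchi_one {p : ℕ} (hp : p.Prime) : qchi p 1 = 0 := by
  rw [qchi_eq_iff hp]; simp

/-- one step of the descent: write `m = p ^ (v + 1) * u` with `p ∤ u`; then `qchi p m = p ^ v * u'`
with `p ∤ u'`. -/
theorem qchi_step {p : ℕ} (hp : p.Prime) (v : ℕ) (u : ℤ) (hu : ¬ (p : ℤ) ∣ u) :
    ∃ u' : ℤ, ¬ (p : ℤ) ∣ u' ∧ qchi p ((p : ℤ) ^ (v + 1) * u) = (p : ℤ) ^ v * u' := by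
  have hp' : Prime (p : ℤ) := Nat.prime_iff_prime_int.1 hp
  obtain ⟨k, hk⟩ : ∃ k, p = k + 2 := ⟨p - 2, by have := hp.two_le; omega⟩
  refine ⟨u * (((p : ℤ) ^ (v + 1) * u) ^ (p - 1) - 1), ?_, ?_⟩
  · intro h
    rcases hp'.dvd_or_dvd h with h | h
    · exact hu h
    · have h1 : (p : ℤ) ∣ ((p : ℤ) ^ (v + 1) * u) ^ (p - 1) := by
        refine dvd_pow ?_ (by have := hp.two_le; omega)
        exact (dvd_pow_self _ (Nat.succ_ne_zero v)).mul_right u
      have h2 : (p : ℤ) ∣ 1 := by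
        have := dvd_sub h1 h
        simpa using this
      exact hp'.not_isUnit (isUnit_of_dvd_one h2)
  · rw [qchi_eq_iff hp]
    have h1 : ((p : ℤ) ^ (v + 1) * u) ^ p
        = ((p : ℤ) ^ (v + 1) * u) ^ (p - 1) * ((p : ℤ) ^ (v + 1) * u) := by
      rw [← pow_succ, Nat.sub_add_cancel hp.one_le]
    rw [h1]
    ring

/-- induction principle: a class of integers closed under `qchi p` which contains some `m ≠ 0`
contains an integer prime to `p`. -/
theorem exists_not_dvd {p : ℕ} (hp : p.Prime) {P : ℤ → Prop} (hP : ∀ m, P m → P (qchi p m))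
    {m : ℤ} (hm : m ≠ 0) (h : P m) : ∃ n, P n ∧ ¬ (p : ℤ) ∣ n := by
  have hp' : Prime (p : ℤ) := Nat.prime_iff_prime_int.1 hp
  obtain ⟨v, u, hu, rfl⟩ : ∃ (v : ℕ) (u : ℤ), ¬ (p : ℤ) ∣ u ∧ m = (p : ℤ) ^ v * u := by
    have hf : FiniteMultiplicity (p : ℤ) m := by
      rw [Int.finiteMultiplicity_iff]
      refine ⟨?_, hm⟩
      simpa using hp.ne_one
    obtain ⟨u, hu, hu'⟩ := hf.exists_eq_pow_mul_and_not_dvd
    exact ⟨_, u, hu', hu⟩
  clear hm
  induction v generalizing u with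
  | zero => exact ⟨_, h, by simpa using hu⟩
  | succ v ih =>
    obtain ⟨u', hu', he⟩ := qchi_step hp v u hu
    have := hP _ h
    rw [he] at this
    exact ih u' hu' this

/-- the additivity defect of `qchi` -/
theorem qchi_add {p : ℕ} (hp : p.Prime) (a c : ℤ) :
    qchi p (a + c) = qchi p a +
      (∑ k ∈ Finset.Ioo 0 p, (p.choose k / p : ℕ) * (a ^ (p - k) * c ^ k)) + qchi p c := by
  rw [qchi_eq_iff hp, mul_add, mul_add, mul_qchi hp, mul_qchi hp, Finset.mul_sum]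
  have h1 : ∀ k ∈ Finset.Ioo 0 p, (p : ℤ) * (((p.choose k / p : ℕ) : ℤ) * (a ^ (p - k) * c ^ k)) =
      (p.choose k : ℤ) * (a ^ (p - k) * c ^ k) := by
    intro k hk
    rw [Finset.mem_Ioo] at hk
    rw [← mul_assoc]
    congr 1
    have : p ∣ p.choose k := hp.dvd_choose_self hk.1.ne' hk.2
    exact_mod_cast Nat.mul_div_cancel' this
  rw [Finset.sum_congr rfl h1]
  have h2 : (a + c) ^ p = ∑ k ∈ Finset.range (p + 1), (p.choose k : ℤ) * (a ^ (p - k) * c ^ k) := by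
    rw [add_comm a c, add_pow]
    refine Finset.sum_congr rfl fun k _ => by ring
  have h3 : Finset.range (p + 1) = insert 0 (insert p (Finset.Ioo 0 p)) := by
    ext k
    have := hp.pos
    simp only [Finset.mem_range, Finset.mem_insert, Finset.mem_Ioo]
    omega
  have h4 : (0 : ℕ) ∉ insert p (Finset.Ioo 0 p) := by
    have := hp.ne_zero
    simp only [Finset.mem_insert, Finset.mem_Ioo]
    omega
  have h5 : p ∉ Finset.Ioo 0 p := by simp
  rw [h2, h3, Finset.sum_insert h4, Finset.sum_insert h5]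
  simp
  ring

end Vale.Agent.P093.N2
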