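import Mathlib.CategoryTheory.Monoidal.Rigid.Basic
import Mathlib.CategoryTheory.Monoidal.Braided.Basic
import Mathlib.CategoryTheory.Monoidal.Preadditive

/-!
# P093, N2, block 2E: traces in a symmetric monoidal category

`trc L K f` is the trace of `f : K ⟶ K`, for an exact pairing `(L, K)` (that is, `L` is a dual of
`K`).

* `tr_comm` : `trc (f ≫ g) = trc (g ≫ f)`;
* `tr_eq_sum` : the trace of the identity of an object with a finite decomposition of the identity;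
* `tr_id_of_braiding` : the trace of the identity of an invertible object whose symmetry is `s`.
-/

open CategoryTheory MonoidalCategory

universe v u

namespace Vale.Agent.P093.N2

section trace

variable {C : Type u} [Category.{v} C] [MonoidalCategory C] [BraidedCategory C]

/-- The trace of an endomorphism of `K`, `L` a dual of `K`. -/
def trc (L K : C) [ExactPairing L K] (f : K ⟶ K) : 𝟙_ C ⟶ 𝟙_ C :=
  η_ L K ≫ L ◁ f ≫ (β_ L K).hom ≫ ε_ L K

theorem tr_id (L K : C) [ExactPairing L K] :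
    trc L K (𝟙 K) = η_ L K ≫ (β_ L K).hom ≫ ε_ L K := by
  rw [trc, MonoidalCategory.whiskerLeft_id, Category.id_comp]

omit [BraidedCategory C] in
/-- The mate of a morphism. -/
theorem exists_mate {K K' : C} (L L' : C) [ExactPairing L K] [ExactPairing L' K'] (g : K' ⟶ K) :
    ∃ g' : L ⟶ L', K' ◁ g' ≫ ε_ L' K' = g ▷ L ≫ ε_ L K ∧
      η_ L K ≫ g' ▷ K = η_ L' K' ≫ L' ◁ g := by
  let h1 : HasLeftDual K := ⟨L⟩
  let h2 : HasLeftDual K' := ⟨L'⟩
  exact ⟨ᘁg, leftAdjointMate_comp_evaluation g, coevaluation_comp_leftAdjointMate g⟩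

/-- The trace is cyclic. -/
theorem tr_comm {K K' : C} (L L' : C) [ExactPairing L K] [ExactPairing L' K'] (f : K ⟶ K')
    (g : K' ⟶ K) : trc L K (f ≫ g) = trc L' K' (g ≫ f) := by
  obtain ⟨g', h1, h2⟩ := exists_mate L L' g
  calc trc L K (f ≫ g) = η_ L K ≫ L ◁ f ≫ (β_ L K').hom ≫ (g ▷ L ≫ ε_ L K) := by
        rw [trc, MonoidalCategory.whiskerLeft_comp]
        simp only [Category.assoc, BraidedCategory.braiding_naturality_right_assoc]
    _ = η_ L K ≫ L ◁ f ≫ (β_ L K').hom ≫ (K' ◁ g' ≫ ε_ L' K') := by rw [h1]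
    _ = η_ L K ≫ L ◁ f ≫ (g' ▷ K') ≫ (β_ L' K').hom ≫ ε_ L' K' := by
        rw [BraidedCategory.braiding_naturality_left_assoc]
    _ = (η_ L K ≫ g' ▷ K) ≫ L' ◁ f ≫ (β_ L' K').hom ≫ ε_ L' K' := by
        rw [Category.assoc, whisker_exchange_assoc]
    _ = trc L' K' (g ≫ f) := by
        rw [h2, trc, MonoidalCategory.whiskerLeft_comp]
        simp only [Category.assoc]

end trace

section additive

variable {C : Type u} [Category.{v} C] [Preadditive C] [MonoidalCategory C]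
  [MonoidalPreadditive C] [BraidedCategory C]

theorem tr_add (L K : C) [ExactPairing L K] (f g : K ⟶ K) :
    trc L K (f + g) = trc L K f + trc L K g := by
  simp only [trc, MonoidalPreadditive.whiskerLeft_add, Preadditive.add_comp,
    Preadditive.comp_add]

/-- the trace as an additive map -/
def trHom (L K : C) [ExactPairing L K] : (K ⟶ K) →+ (𝟙_ C ⟶ 𝟙_ C) :=
  AddMonoidHom.mk' (trc L K) (tr_add L K)

theorem tr_sum (L K : C) [ExactPairing L K] {ι : Type*} (s : Finset ι) (f : ι → (K ⟶ K)) :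
    trc L K (∑ i ∈ s, f i) = ∑ i ∈ s, trc L K (f i) := map_sum (trHom L K) f s

/-- The trace of the identity of `K`, when the identity is a sum of idempotents with images
`P i`. -/
theorem tr_id_eq_sum (L K : C) [ExactPairing L K] {ι : Type*} [Fintype ι] (P Q : ι → C)
    [∀ i, ExactPairing (Q i) (P i)] (f : ∀ i, K ⟶ P i) (g : ∀ i, P i ⟶ K)
    (h1 : ∑ i, f i ≫ g i = 𝟙 K) (h2 : ∀ i, g i ≫ f i = 𝟙 (P i)) :
    trc L K (𝟙 K) = ∑ i, trc (Q i) (P i) (𝟙 (P i)) := by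
  rw [← h1, tr_sum]
  refine Finset.sum_congr rfl fun i _ => ?_
  rw [tr_comm L (Q i), h2]

end additive

section sign

set_option linter.unusedSectionVars false

variable {C : Type u} [Category.{v} C] [Preadditive C] [MonoidalCategory C]
  [MonoidalPreadditive C] [SymmetricCategory C]

/-- The symmetry of a tensor product whose factors have a scalar symmetry. -/
theorem braiding_tensor_self {A B : C} {a b : ℤ} (ha : (β_ A A).hom = a • 𝟙 (A ⊗ A))
    (hb : (β_ B B).hom = b • 𝟙 (B ⊗ B)) :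
    (β_ (A ⊗ B) (A ⊗ B)).hom = (a * b) • 𝟙 ((A ⊗ B) ⊗ (A ⊗ B)) := by
  have hw : ∀ (X : C) {Y Z : C} (m : ℤ) (f : Y ⟶ Z), X ◁ (m • f) = m • X ◁ f := fun X Y Z m f =>
    (tensorLeft X).map_zsmul (f := f) (r := m)
  have hw' : ∀ {Y Z : C} (m : ℤ) (f : Y ⟶ Z) (X : C), (m • f) ▷ X = m • f ▷ X := fun m f X =>
    (tensorRight X).map_zsmul (f := f) (r := m)
  have hs : (β_ B A).hom = (β_ A B).inv := by
    rw [← cancel_mono (β_ A B).hom, SymmetricCategory.symmetry, Iso.inv_hom_id]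
  rw [BraidedCategory.braiding_tensor_left_hom, BraidedCategory.braiding_tensor_right_hom,
    BraidedCategory.braiding_tensor_right_hom, ha, hb, hs]
  simp only [hw, hw', Preadditive.comp_zsmul, Preadditive.zsmul_comp, smul_smul,
    MonoidalCategory.whiskerLeft_comp, MonoidalCategory.comp_whiskerRight, Category.assoc,
    MonoidalCategory.whiskerLeft_id, MonoidalCategory.id_whiskerRight]
  congr 1
  have h3 : (A ◁ (β_ A B).inv ▷ B) ≫ (A ◁ (β_ A B).hom ▷ B) = 𝟙 _ := by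
    rw [← MonoidalCategory.whiskerLeft_comp, ← comp_whiskerRight, Iso.inv_hom_id]
    simp
  have key : ∀ (f : B ⊗ A ⟶ A ⊗ B) (g : A ⊗ B ⟶ B ⊗ A),
      (α_ A B (A ⊗ B)).hom ≫ A ◁ (α_ B A B).inv ≫ A ◁ f ▷ B ≫ A ◁ (α_ A B B).hom ≫
        𝟙 (A ⊗ A ⊗ B ⊗ B) ≫ A ◁ (α_ A B B).inv ≫ (α_ A (A ⊗ B) B).inv ≫ (α_ A A B).inv ▷ B ≫
          𝟙 (((A ⊗ A) ⊗ B) ⊗ B) ≫ (α_ A A B).hom ▷ B ≫ (A ◁ g) ▷ B ≫ (α_ A B A).inv ▷ B ≫
            (α_ (A ⊗ B) A B).hom =
      (α_ A B (A ⊗ B)).hom ≫ A ◁ (α_ B A B).inv ≫ (A ◁ f ▷ B ≫ A ◁ g ▷ B) ≫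
        A ◁ (α_ B A B).hom ≫ (α_ A B (A ⊗ B)).inv := by
    intro f g
    monoidal
  rw [key, h3]
  simp

omit [Preadditive C] [MonoidalPreadditive C] [SymmetricCategory C] in
/-- Tensoring with an invertible object is faithful. -/
theorem eq_of_whiskerLeft {L M : C} (i : M ⊗ L ≅ 𝟙_ C) {X Y : C} {f g : X ⟶ Y}
    (h : L ◁ f = L ◁ g) : f = g := by
  have h1 : M ◁ L ◁ f = M ◁ L ◁ g := by rw [h]
  have h2 : (M ⊗ L) ◁ f = (M ⊗ L) ◁ g := by
    rw [tensor_whiskerLeft, tensor_whiskerLeft, h1]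
  have h3 : (𝟙_ C) ◁ f = (𝟙_ C) ◁ g := by
    rw [← cancel_epi (i.hom ▷ X), ← whisker_exchange, ← whisker_exchange, h2]
  rw [id_whiskerLeft, id_whiskerLeft, cancel_epi, cancel_mono] at h3
  exact h3

/-- The trace of the identity of an invertible object is its symmetry. -/
theorem tr_id_of_braiding {L M : C} [ExactPairing M L] [IsIso (η_ M L)] [IsIso (ε_ M L)] {s : ℤ}
    (hs : (β_ L L).hom = s • 𝟙 (L ⊗ L)) (hs2 : s * s = 1) :
    trc M L (𝟙 L) = s • 𝟙 (𝟙_ C) := by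
  have hw : ∀ (X : C) {Y Z : C} (m : ℤ) (f : Y ⟶ Z), X ◁ (m • f) = m • X ◁ f := fun X Y Z m f =>
    (tensorLeft X).map_zsmul (f := f) (r := m)
  have hw' : ∀ {Y Z : C} (m : ℤ) (f : Y ⟶ Z) (X : C), (m • f) ▷ X = m • f ▷ X := fun m f X =>
    (tensorRight X).map_zsmul (f := f) (r := m)
  refine eq_of_whiskerLeft (L := L) (asIso (η_ M L)).symm ?_
  rw [tr_id, hw, MonoidalCategory.whiskerLeft_id]
  have h1 : L ◁ η_ M L = (ρ_ L).hom ≫ (λ_ L).inv ≫ inv (ε_ M L) ▷ L ≫ (α_ L M L).hom := by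
    have h := ExactPairing.coevaluation_evaluation M L
    rw [← cancel_mono ((α_ L M L).inv ≫ ε_ M L ▷ L), h]
    simp
  have h2 : (α_ L M L).hom ≫ L ◁ (β_ M L).hom = s • (β_ (L ⊗ M) L).hom := by
    rw [BraidedCategory.braiding_tensor_left_hom, hs, hw', id_whiskerRight]
    simp only [Preadditive.comp_zsmul, Preadditive.zsmul_comp, Category.id_comp, smul_smul, hs2,
      one_smul, Iso.inv_hom_id, Category.comp_id]
  rw [MonoidalCategory.whiskerLeft_comp, MonoidalCategory.whiskerLeft_comp, h1]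
  simp only [Category.assoc]
  rw [reassoc_of% h2, Preadditive.zsmul_comp, ← BraidedCategory.braiding_naturality_left]
  simp only [Preadditive.comp_zsmul]
  rw [← comp_whiskerRight_assoc, IsIso.inv_hom_id]
  simp

theorem braiding_of_iso {A B : C} (e : A ≅ B) {a : ℤ} (ha : (β_ A A).hom = a • 𝟙 (A ⊗ A)) :
    (β_ B B).hom = a • 𝟙 (B ⊗ B) := by
  have h1 : (e.hom ⊗ₘ e.hom) ≫ (β_ B B).hom = (β_ A A).hom ≫ (e.hom ⊗ₘ e.hom) :=
    BraidedCategory.braiding_naturality e.hom e.hom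
  have h2 : (e.inv ⊗ₘ e.inv) ≫ (e.hom ⊗ₘ e.hom) = 𝟙 (B ⊗ B) := by
    rw [tensorHom_comp_tensorHom, e.inv_hom_id]
    simp
  calc (β_ B B).hom = (e.inv ⊗ₘ e.inv) ≫ (e.hom ⊗ₘ e.hom) ≫ (β_ B B).hom := by
        rw [← Category.assoc, h2, Category.id_comp]
    _ = a • ((e.inv ⊗ₘ e.inv) ≫ (e.hom ⊗ₘ e.hom)) := by
        rw [h1, ha, Preadditive.zsmul_comp, Category.id_comp, Preadditive.comp_zsmul]
    _ = a • 𝟙 (B ⊗ B) := by rw [h2]

/-- If `y` is killed by tensoring with an object `L ⊗ K` which has the unit as a retract up to the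
integer `m`, then `m • y = 0`. -/
theorem zsmul_eq_zero_of_whiskerLeft {L K : C} {m : ℤ} (a : 𝟙_ C ⟶ L ⊗ K) (b : L ⊗ K ⟶ 𝟙_ C)
    (hab : a ≫ b = m • 𝟙 (𝟙_ C)) {W Z : C} (y : W ⟶ Z) (hy : K ◁ y = 0) : m • y = 0 := by
  have hw' : ∀ {Y Z : C} (m : ℤ) (f : Y ⟶ Z) (X : C), (m • f) ▷ X = m • f ▷ X := fun m f X =>
    (tensorRight X).map_zsmul (f := f) (r := m)
  have h1 : (L ⊗ K) ◁ y = 0 := by
    rw [tensor_whiskerLeft, hy, MonoidalPreadditive.whiskerLeft_zero, Limits.zero_comp,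
      Limits.comp_zero]
  have h2 : (a ≫ b) ▷ W ≫ 𝟙_ C ◁ y = 0 := by
    rw [comp_whiskerRight, Category.assoc, ← whisker_exchange, h1, Limits.zero_comp,
      Limits.comp_zero]
  rw [hab, hw', id_whiskerRight, Preadditive.zsmul_comp, Category.id_comp, id_whiskerLeft,
    ← Preadditive.comp_zsmul, ← Preadditive.zsmul_comp] at h2
  rwa [Preadditive.IsIso.comp_left_eq_zero, Preadditive.IsIso.comp_right_eq_zero] at h2

end sign

end Vale.Agent.P093.N2
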