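import Mathlib.Topology.Maps.OpenQuotient
import Mathlib.Topology.Homeomorph.Lemmas
import Mathlib.Topology.Separation.Hausdorff

/-!
# P093, part N2: embeddings of orbit spaces

Mathlib-only topology: a saturated subspace of the total space of an open quotient map gives a
subspace of the base.
-/

open Topology Set

namespace Vale.Agent.P093.N2

section emb

variable {P P' Y Y' : Type*} [TopologicalSpace P] [TopologicalSpace P'] [TopologicalSpace Y]
  [TopologicalSpace Y']

/-- A saturated subspace of the total space of an open map gives an embedding of bases. -/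
theorem isEmbedding_of_saturated {π : P → Y} {π' : P' → Y'} {ι : P' → P} {j : Y' → Y}
    (hπ : IsOpenMap π) (hπc : Continuous π) (hπ' : IsQuotientMap π') (hι : IsEmbedding ι)
    (hcomm : ∀ p, j (π' p) = π (ι p)) (hj : Function.Injective j)
    (hsat : ∀ p p', π p = π (ι p') → p ∈ range ι) : IsEmbedding j := by
  refine ⟨⟨?_⟩, hj⟩
  apply le_antisymm
  · rw [← continuous_iff_le_induced, hπ'.continuous_iff]
    have h : j ∘ π' = π ∘ ι := funext hcomm
    rw [h]
    exact hπc.comp hι.continuous
  · intro U hU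
    have h1 : IsOpen (π' ⁻¹' U) := hU.preimage hπ'.continuous
    obtain ⟨O, hO, hOU⟩ := hι.isOpen_iff.mp h1
    refine ⟨π '' O, hπ O hO, ?_⟩
    ext y
    obtain ⟨p', rfl⟩ := hπ'.surjective y
    constructor
    · rintro ⟨o, ho, hoy⟩
      obtain ⟨p'', rfl⟩ := hsat o p' (hoy.trans (hcomm p'))
      have h2 : p'' ∈ π' ⁻¹' U := by rw [← hOU]; exact ho
      have h3 : π' p'' = π' p' := hj ((hcomm p'').trans hoy)
      rw [← h3]
      exact h2
    · intro hy
      have h2 : p' ∈ ι ⁻¹' O := by rw [hOU]; exact hy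
      exact ⟨ι p', h2, (hcomm p').symm⟩

omit [TopologicalSpace P] [TopologicalSpace P'] [TopologicalSpace Y] [TopologicalSpace Y'] in
theorem range_of_saturated {π : P → Y} {π' : P' → Y'} {ι : P' → P} {j : Y' → Y}
    (hs : Function.Surjective π') (hcomm : ∀ p, j (π' p) = π (ι p)) :
    range j = π '' range ι := by
  ext y
  constructor
  · rintro ⟨y', rfl⟩
    obtain ⟨p', rfl⟩ := hs y'
    exact ⟨ι p', ⟨p', rfl⟩, (hcomm p').symm⟩
  · rintro ⟨_, ⟨p', rfl⟩, rfl⟩
    exact ⟨π' p', hcomm p'⟩

/-- a continuous injective open map into a subspace -/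
theorem isOpenEmbedding_codRestrict {Q : Type*} [TopologicalSpace Q] {f : Q → Y} {T : Set Y}
    (hf : IsEmbedding f) (hT : ∀ q, f q ∈ T) (O : Set Y) (hO : IsOpen O)
    (hr : range f = O ∩ T) : IsOpenEmbedding (fun q => (⟨f q, hT q⟩ : T)) := by
  refine ⟨?_, ?_⟩
  · exact IsEmbedding.of_comp (hf.continuous.subtype_mk hT) continuous_subtype_val hf
  · have h : range (fun q => (⟨f q, hT q⟩ : T)) = Subtype.val ⁻¹' O := by
      ext ⟨y, hy⟩
      constructor
      · rintro ⟨q, hq⟩
        have h1 : f q = y := congrArg Subtype.val hq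
        have h2 : y ∈ range f := ⟨q, h1⟩
        rw [hr] at h2
        exact h2.1
      · intro h
        have h2 : y ∈ range f := by rw [hr]; exact ⟨h, hy⟩
        obtain ⟨q, hq⟩ := h2
        exact ⟨q, Subtype.ext hq⟩
    rw [h]
    exact hO.preimage continuous_subtype_val

/-- The free stratum: `π` open and continuous, `φ : Q → P` an embedding, `π ∘ φ` injective, and
inside the saturated set `π ⁻¹' T` the image of `φ` is relatively open. -/
theorem isOpenEmbedding_free {Q : Type*} [TopologicalSpace Q] {π : P → Y} {φ : Q → P}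
    (hπ : IsOpenMap π) (hπc : Continuous π) (hφ : IsEmbedding φ)
    (hinj : Function.Injective (π ∘ φ)) {T : Set Y} (hT : ∀ q, π (φ q) ∈ T)
    (O : Set P) (hO : IsOpen O) (hr : range φ = O ∩ π ⁻¹' T) :
    IsOpenEmbedding (fun q => (⟨π (φ q), hT q⟩ : T)) := by
  refine IsOpenEmbedding.of_continuous_injective_isOpenMap
    ((hπc.comp hφ.continuous).subtype_mk hT) ?_ ?_
  · intro a b hab
    exact hinj (congrArg Subtype.val hab)
  · intro V hV
    obtain ⟨V', hV', hVV⟩ := hφ.isOpen_iff.mp hV
    have h : (fun q => (⟨π (φ q), hT q⟩ : T)) '' V = Subtype.val ⁻¹' (π '' (V' ∩ O)) := by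
      ext ⟨y, hy⟩
      constructor
      · rintro ⟨q, hq, hqy⟩
        have h1 : π (φ q) = y := congrArg Subtype.val hqy
        have h2 : φ q ∈ O ∩ π ⁻¹' T := by rw [← hr]; exact ⟨q, rfl⟩
        have h3 : q ∈ φ ⁻¹' V' := by rw [hVV]; exact hq
        exact ⟨φ q, ⟨h3, h2.1⟩, h1⟩
      · rintro ⟨p, ⟨hp1, hp2⟩, hp3⟩
        have h1 : p ∈ O ∩ π ⁻¹' T := ⟨hp2, by
          change π p ∈ T
          rw [hp3]
          exact hy⟩
        rw [← hr] at h1
        obtain ⟨q, rfl⟩ := h1
        have h3 : q ∈ V := by rw [← hVV]; exact hp1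
        exact ⟨q, h3, Subtype.ext hp3⟩
    rw [h]
    exact (hπ _ (hV'.inter hO)).preimage continuous_subtype_val

end emb

end Vale.Agent.P093.N2
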