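import Vale.Agent.P093.N2.ChiNum
import Mathlib.GroupTheory.SpecificGroups.Cyclic
import Mathlib.Algebra.BigOperators.Ring.Finset

/-!
# P093, part N2: families of subsets of a group of prime order

`IsFam D`: `D` is a family of proper subsets of the finite group `G`, stable under subsets and
translations.  `fam_induction`: the family of all proper subsets is obtained from `{∅}` by adding
free orbits, with the number of orbits counted by `qchi`.
-/

set_option linter.unusedSectionVars false

namespace Vale.Agent.P093.N2

section fam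

variable {G : Type} [Group G] [Fintype G] [DecidableEq G]

/-- a family of proper subsets, stable under subsets and translations -/
structure IsFam (D : Finset (Finset G)) : Prop where
  empty_mem : ∅ ∈ D
  univ_notMem : Finset.univ ∉ D
  down : ∀ W ∈ D, ∀ W' ⊆ W, W' ∈ D
  stable : ∀ W ∈ D, ∀ g : G, W.image (· * g) ∈ D

/-- the orbit of a subset under translations -/
def orbF (W : Finset G) : Finset (Finset G) := Finset.univ.image fun g : G => W.image (· * g)

theorem mem_orbF {W V : Finset G} : V ∈ orbF W ↔ ∃ g : G, W.image (· * g) = V := by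
  simp [orbF]

theorem card_trI (W : Finset G) (g : G) : (W.image (· * g)).card = W.card :=
  Finset.card_image_of_injective _ (mul_left_injective g)

theorem trI_one (W : Finset G) : W.image (· * (1 : G)) = W := by
  simp

theorem trI_trI (W : Finset G) (g h : G) :
    (W.image (· * g)).image (· * h) = W.image (· * (g * h)) := by
  rw [Finset.image_image]
  congr 1
  funext x
  exact mul_assoc x g h

theorem self_mem_orbF (W : Finset G) : W ∈ orbF W := mem_orbF.mpr ⟨1, trI_one W⟩

theorem card_of_mem_orbF {W V : Finset G} (h : V ∈ orbF W) : V.card = W.card := by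
  obtain ⟨g, rfl⟩ := mem_orbF.mp h
  exact card_trI W g

theorem mem_orbF_of_trI {W V : Finset G} {g : G} (h : V.image (· * g) ∈ orbF W) : V ∈ orbF W := by
  obtain ⟨k, hk⟩ := mem_orbF.mp h
  refine mem_orbF.mpr ⟨k * g⁻¹, ?_⟩
  rw [← trI_trI, hk, trI_trI, mul_inv_cancel, trI_one]

/-- proper nonempty subsets of a group of prime order have no symmetries -/
theorem free_of_prime (hp : (Fintype.card G).Prime) {W : Finset G} (h0 : W ≠ ∅)
    (h1 : W ≠ Finset.univ) : ∀ g : G, W.image (· * g) = W → g = 1 := by
  have hp' : Fact (Nat.card G).Prime := ⟨by rwa [Nat.card_eq_fintype_card]⟩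
  let H : Subgroup G :=
    { carrier := {g | W.image (· * g) = W}
      mul_mem' := fun {g h} hg hh => by
        change W.image (· * (g * h)) = W
        rw [← trI_trI, hg, hh]
      one_mem' := trI_one W
      inv_mem' := fun {g} hg => by
        change W.image (· * g⁻¹) = W
        have h2 : W.image (· * g) = W := hg
        conv_lhs => rw [← h2]
        rw [trI_trI, mul_inv_cancel, trI_one] }
  intro g hg
  rcases H.eq_bot_or_eq_top_of_prime_card with h | h
  · have : g ∈ H := hg
    rw [h] at this
    exact Subgroup.mem_bot.mp this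
  · exfalso
    obtain ⟨w, hw⟩ := Finset.nonempty_iff_ne_empty.mpr h0
    apply h1
    ext x
    simp only [Finset.mem_univ, iff_true]
    have h2 : w⁻¹ * x ∈ H := by rw [h]; exact Subgroup.mem_top _
    have h3 : W.image (· * (w⁻¹ * x)) = W := h2
    rw [← h3, Finset.mem_image]
    exact ⟨w, hw, mul_inv_cancel_left w x⟩

theorem card_orbF {W : Finset G} (h : ∀ g : G, W.image (· * g) = W → g = 1) :
    (orbF W).card = Fintype.card G := by
  refine Finset.card_image_of_injective _ ?_
  intro g k hgk
  have h1 : W.image (· * g) = W.image (· * k) := hgk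
  have h2 : W.image (· * (g * k⁻¹)) = W := by
    rw [← trI_trI, h1, trI_trI, mul_inv_cancel, trI_one]
  exact mul_inv_eq_one.mp (h _ h2)

namespace IsFam

variable {D : Finset (Finset G)}

theorem orbF_subset (hD : IsFam D) {W : Finset G} (hW : W ∈ D) : orbF W ⊆ D := by
  intro V hV
  obtain ⟨g, rfl⟩ := mem_orbF.mp hV
  exact hD.stable W hW g

theorem singleton (h : (∅ : Finset G) ≠ Finset.univ) : IsFam ({∅} : Finset (Finset G)) where
  empty_mem := Finset.mem_singleton_self _
  univ_notMem h' := h (Finset.mem_singleton.mp h').symm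
  down W hW W' h' := by
    rw [Finset.mem_singleton] at hW ⊢
    subst hW
    exact Finset.subset_empty.mp h'
  stable W hW g := by
    rw [Finset.mem_singleton] at hW ⊢
    subst hW
    exact Finset.image_empty _

theorem proper [Nonempty G] : IsFam ((Finset.univ : Finset (Finset G)).erase Finset.univ) where
  empty_mem := by
    rw [Finset.mem_erase]
    exact ⟨(Finset.univ_nonempty (α := G)).ne_empty.symm, Finset.mem_univ _⟩
  univ_notMem h := (Finset.mem_erase.mp h).1 rfl
  down W hW W' h' := by
    rw [Finset.mem_erase] at hW ⊢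
    refine ⟨fun h => hW.1 ?_, Finset.mem_univ _⟩
    rw [h] at h'
    exact Finset.univ_subset_iff.mp h'
  stable W hW g := by
    rw [Finset.mem_erase] at hW ⊢
    refine ⟨fun h => hW.1 ?_, Finset.mem_univ _⟩
    rw [← Finset.card_eq_iff_eq_univ, ← card_trI W g, h, Finset.card_univ]

/-- remove a maximal orbit -/
theorem sdiff (hD : IsFam D) {W : Finset G} (hW0 : W ≠ ∅)
    (hmax : ∀ V ∈ D, V.card ≤ W.card) : IsFam (D \ orbF W) where
  empty_mem := by
    rw [Finset.mem_sdiff]
    refine ⟨hD.empty_mem, fun h => ?_⟩
    have := card_of_mem_orbF h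
    rw [Finset.card_empty] at this
    exact hW0 (Finset.card_eq_zero.mp this.symm)
  univ_notMem h := hD.univ_notMem (Finset.mem_sdiff.mp h).1
  down V hV V' h' := by
    rw [Finset.mem_sdiff] at hV ⊢
    refine ⟨hD.down V hV.1 V' h', fun h => hV.2 ?_⟩
    have h1 : V' = V := Finset.eq_of_subset_of_card_le h' (by
      rw [card_of_mem_orbF h]
      exact hmax V hV.1)
    rwa [← h1]
  stable V hV g := by
    rw [Finset.mem_sdiff] at hV ⊢
    exact ⟨hD.stable V hV.1 g, fun h => hV.2 (mem_orbF_of_trI h)⟩

end IsFam

/-- the weighted number of nonempty members of a family -/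
def wt (a c : ℤ) (D : Finset (Finset G)) : ℤ :=
  ∑ V ∈ D.erase ∅, a ^ (Fintype.card G - V.card) * c ^ V.card

theorem wt_orbF {a c : ℤ} {D : Finset (Finset G)} {W : Finset G} (hW : W ∉ D) (hD : IsFam D)
    (hW0 : W ≠ ∅) (hfree : ∀ g : G, W.image (· * g) = W → g = 1) :
    wt a c (D ∪ orbF W) = wt a c D +
      Fintype.card G * (a ^ (Fintype.card G - W.card) * c ^ W.card) := by
  have hdis : Disjoint (D.erase ∅) (orbF W) := by
    rw [Finset.disjoint_left]
    intro V hV h
    have h1 := Finset.mem_of_mem_erase hV
    obtain ⟨g, rfl⟩ := mem_orbF.mp h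
    have h2 := hD.stable _ h1 g⁻¹
    rw [trI_trI, mul_inv_cancel, trI_one] at h2
    exact hW h2
  have h0 : ∅ ∉ orbF W := fun h => by
    have := card_of_mem_orbF h
    rw [Finset.card_empty] at this
    exact hW0 (Finset.card_eq_zero.mp this.symm)
  have h1 : (D ∪ orbF W).erase ∅ = D.erase ∅ ∪ orbF W := by
    rw [Finset.erase_union_distrib, Finset.erase_eq_of_notMem h0]
  rw [wt, h1, Finset.sum_union hdis]
  congr 1
  rw [Finset.sum_congr rfl (g := fun _ => a ^ (Fintype.card G - W.card) * c ^ W.card)
    (fun V hV => by rw [card_of_mem_orbF hV]), Finset.sum_const, card_orbF hfree, nsmul_eq_mul]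

theorem wt_proper [Nonempty G] (a c : ℤ) :
    wt a c ((Finset.univ : Finset (Finset G)).erase Finset.univ) =
      (a + c) ^ Fintype.card G - a ^ Fintype.card G - c ^ Fintype.card G := by
  have h1 := Fintype.sum_pow_mul_eq_add_pow G c a
  have h2 : (∅ : Finset G) ∈ (Finset.univ : Finset (Finset G)).erase Finset.univ :=
    IsFam.proper.empty_mem
  have h3 := Finset.add_sum_erase (Finset.univ : Finset (Finset G))
    (fun s => c ^ s.card * a ^ (Fintype.card G - s.card)) (Finset.mem_univ Finset.univ)
  have h4 := Finset.add_sum_erase ((Finset.univ : Finset (Finset G)).erase Finset.univ)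
    (fun s => c ^ s.card * a ^ (Fintype.card G - s.card)) h2
  simp only [Finset.card_univ, Nat.sub_self, pow_zero, mul_one] at h3
  simp only [Finset.card_empty, Nat.sub_zero, pow_zero, one_mul] at h4
  have h5 : wt a c ((Finset.univ : Finset (Finset G)).erase Finset.univ) =
      ∑ s ∈ ((Finset.univ : Finset (Finset G)).erase Finset.univ).erase ∅,
        c ^ s.card * a ^ (Fintype.card G - s.card) :=
    Finset.sum_congr rfl fun s _ => mul_comm _ _
  rw [h5, add_comm a c]
  linarith

/-- **Induction principle.** The family of all proper subsets of a group of prime order is obtained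
from `{∅}` by adding free orbits. -/
theorem fam_induction (hp : (Fintype.card G).Prime) {P : Finset (Finset G) → ℤ → Prop}
    {r a c k : ℤ} (h0 : P {∅} r)
    (hstep : ∀ (D : Finset (Finset G)) (W : Finset G) (s : ℤ), IsFam D → IsFam (D ∪ orbF W) →
      W ∉ D → W ≠ ∅ → W ≠ Finset.univ → (∀ g : G, W.image (· * g) = W → g = 1) → P D s →
      P (D ∪ orbF W) (s + k * (a ^ (Fintype.card G - W.card) * c ^ W.card))) :
    P ((Finset.univ : Finset (Finset G)).erase Finset.univ)
      (r + k * (qchi (Fintype.card G) (a + c) - qchi (Fintype.card G) a -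
        qchi (Fintype.card G) c)) := by
  have key : ∀ (n : ℕ) (D : Finset (Finset G)), D.card = n → IsFam D →
      ∃ s : ℤ, (Fintype.card G : ℤ) * s = wt a c D ∧ P D (r + k * s) := by
    intro n
    induction n using Nat.strong_induction_on with
    | _ n ih =>
      intro D hn hD
      by_cases hD0 : D.erase ∅ = ∅
      · have h1 : D = {∅} := by
          rw [← Finset.insert_erase hD.empty_mem, hD0]
          rfl
        refine ⟨0, ?_, ?_⟩
        · rw [wt, hD0, Finset.sum_empty, mul_zero]
        · rw [h1, mul_zero, add_zero]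
          exact h0
      · obtain ⟨W, hW, hmax⟩ := Finset.exists_max_image (D.erase ∅) Finset.card
          (Finset.nonempty_iff_ne_empty.mpr hD0)
        have hW0 : W ≠ ∅ := Finset.ne_of_mem_erase hW
        have hWD : W ∈ D := Finset.mem_of_mem_erase hW
        have hW1 : W ≠ Finset.univ := fun h => hD.univ_notMem (h ▸ hWD)
        have hfree := free_of_prime hp hW0 hW1
        have hmax' : ∀ V ∈ D, V.card ≤ W.card := by
          intro V hV
          by_cases h : V = ∅
          · rw [h, Finset.card_empty]
            exact Nat.zero_le _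
          · exact hmax V (Finset.mem_erase.mpr ⟨h, hV⟩)
        have hD' : IsFam (D \ orbF W) := hD.sdiff hW0 hmax'
        have hWD' : W ∉ D \ orbF W := fun h => (Finset.mem_sdiff.mp h).2 (self_mem_orbF W)
        have hDD' : D \ orbF W ∪ orbF W = D := Finset.sdiff_union_of_subset (hD.orbF_subset hWD)
        have hlt : (D \ orbF W).card < n := by
          rw [← hn]
          refine Finset.card_lt_card ⟨Finset.sdiff_subset, fun h => hWD' (h hWD)⟩
        obtain ⟨s, hs, hP⟩ := ih _ hlt _ rfl hD'
        refine ⟨s + a ^ (Fintype.card G - W.card) * c ^ W.card, ?_, ?_⟩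
        · rw [mul_add, hs, ← wt_orbF hWD' hD' hW0 hfree, hDD']
        · have h1 := hstep _ W _ hD' (by rwa [hDD']) hWD' hW0 hW1 hfree hP
          rw [hDD'] at h1
          rwa [mul_add, ← add_assoc]
  obtain ⟨s, hs, hP⟩ := key _ _ rfl IsFam.proper
  rw [wt_proper] at hs
  have h1 : s = qchi (Fintype.card G) (a + c) - qchi (Fintype.card G) a -
      qchi (Fintype.card G) c := by
    have hp0 : (Fintype.card G : ℤ) ≠ 0 := Int.natCast_ne_zero.2 hp.ne_zero
    apply mul_left_cancel₀ hp0
    rw [hs, mul_sub, mul_sub, mul_qchi hp, mul_qchi hp, mul_qchi hp]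
    ring
  rwa [← h1]

end fam

end Vale.Agent.P093.N2
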