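import Mathlib.Topology.Algebra.ConstMulAction
import Mathlib.Topology.Algebra.MulAction
import Mathlib.Topology.Instances.Real.Lemmas
import Mathlib.Topology.Order.Lattice
import Mathlib.Data.ZMod.Basic
import Mathlib.GroupTheory.OrderOfElement
import Mathlib.GroupTheory.SpecificGroups.Cyclic
import Mathlib.Topology.MetricSpace.ProperSpace
import Mathlib.Tactic.FieldSimp
import Mathlib.Tactic.Linarith

/-!
# P093, part N2: stars and equivariant maps to spheres of stars

`G` a finite group.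

* `St G` : functions `f : G → ℝ`, `f ≥ 0`, with at most one nonzero value (a star with `|G|` legs);
* `SS G κ` : families `x : κ → G → ℝ` in `St G` with total sum one: a compact free `G`-space;
* `toSS` : for a `G`-space `Ω` and continuous functions `ψ k : Ω → ℝ`, `k : ι`, such that for every
  `ω` some `g ↦ ψ k (g⁻¹ • ω)` is not constant (`|G|` prime): a continuous equivariant map
  `Ω → SS G (ι × Finset G)`.
-/

open Finset

namespace Vale.Agent.P093.N2.Star

section Defs

variable (G : Type) [Group G]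

/-- The star: nonnegative functions on `G` with at most one nonzero value. -/
def St : Set (G → ℝ) := {f | (∀ g, 0 ≤ f g) ∧ ∀ g h, f g ≠ 0 → f h ≠ 0 → g = h}

variable {G}

/-- translation of functions on `G` -/
def tr (g : G) (f : G → ℝ) : G → ℝ := fun h => f (g⁻¹ * h)

@[simp] theorem tr_apply (g : G) (f : G → ℝ) (h : G) : tr g f h = f (g⁻¹ * h) := rfl

theorem tr_one (f : G → ℝ) : tr 1 f = f := by
  funext h; simp

theorem tr_mul (a b : G) (f : G → ℝ) : tr (a * b) f = tr a (tr b f) := by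
  funext h; simp [mul_assoc]

theorem tr_mem_St {f : G → ℝ} (hf : f ∈ St G) (g : G) : tr g f ∈ St G :=
  ⟨fun h => hf.1 _, fun a b ha hb => mul_left_cancel (hf.2 _ _ ha hb)⟩

theorem zero_mem_St : (0 : G → ℝ) ∈ St G :=
  ⟨fun _ => le_rfl, fun g _ hg => absurd rfl hg⟩

theorem smul_mem_St {f : G → ℝ} (hf : f ∈ St G) {c : ℝ} (hc : 0 ≤ c) : c • f ∈ St G := by
  refine ⟨fun g => mul_nonneg hc (hf.1 g), fun g h hg hh => hf.2 g h ?_ ?_⟩
  · intro h0; apply hg; simp [h0]
  · intro h0; apply hh; simp [h0]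

theorem isClosed_St : IsClosed (St G) := by
  have : St G = (⋂ g, {f : G → ℝ | 0 ≤ f g}) ∩
      ⋂ g, ⋂ h, ⋂ (_ : g ≠ h), {f : G → ℝ | f g * f h = 0} := by
    ext f
    simp only [St, Set.mem_ofPred_eq, Set.mem_inter_iff, Set.mem_iInter]
    refine and_congr Iff.rfl ⟨fun H g h hgh => ?_, fun H g h hg hh => ?_⟩
    · by_contra h0
      exact hgh (H g h (left_ne_zero_of_mul h0) (right_ne_zero_of_mul h0))
    · by_contra hgh
      exact mul_ne_zero hg hh (H g h hgh)
  rw [this]
  refine IsClosed.inter (isClosed_iInter fun g => isClosed_le continuous_const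
    (continuous_apply g)) ?_
  refine isClosed_iInter fun g => isClosed_iInter fun h => isClosed_iInter fun _ => ?_
  exact isClosed_eq ((continuous_apply g).mul (continuous_apply h)) continuous_const

end Defs

section SS

variable (G : Type) [Group G] [Fintype G] (κ : Type) [Fintype κ]

/-- The sphere of a power of the star: families of points of the star with total sum one. -/
def SS : Set (κ → G → ℝ) := {x | (∀ k, x k ∈ St G) ∧ ∑ k, ∑ g, x k g = 1}

theorem isClosed_SS : IsClosed (SS G κ) := by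
  refine IsClosed.inter ?_ ?_
  · change IsClosed {x : κ → G → ℝ | ∀ k, x k ∈ St G}
    rw [Set.ofPred_forall]
    exact isClosed_iInter fun k => isClosed_St.preimage (continuous_apply k)
  · exact isClosed_eq (continuous_finsetSum _ fun k _ => continuous_finsetSum _ fun g _ =>
      (continuous_apply g).comp (continuous_apply k)) continuous_const

theorem SS_le_one {x : κ → G → ℝ} (hx : x ∈ SS G κ) (k : κ) (g : G) : x k g ≤ 1 := by
  rw [← hx.2]
  calc x k g ≤ ∑ g, x k g := single_le_sum (f := fun g => x k g) (fun g _ => (hx.1 k).1 g)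
        (mem_univ g)
    _ ≤ ∑ k, ∑ g, x k g := single_le_sum (f := fun k => ∑ g, x k g)
        (fun k _ => sum_nonneg fun g _ => (hx.1 k).1 g) (mem_univ k)

theorem isCompact_SS : IsCompact (SS G κ) := by
  have h : IsCompact (Set.pi Set.univ fun _ : κ => Set.pi Set.univ fun _ : G =>
      Set.Icc (0 : ℝ) 1) :=
    isCompact_univ_pi fun _ => isCompact_univ_pi fun _ => isCompact_Icc
  refine h.of_isClosed_subset (isClosed_SS G κ) fun x hx => ?_
  simp only [Set.mem_pi, Set.mem_univ, true_implies]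
  exact fun k g => ⟨(hx.1 k).1 g, SS_le_one G κ hx k g⟩

instance : CompactSpace (SS G κ) := isCompact_iff_compactSpace.mp (isCompact_SS G κ)

variable {G κ}

theorem tr_mem_SS {x : κ → G → ℝ} (hx : x ∈ SS G κ) (g : G) : (fun k => tr g (x k)) ∈ SS G κ := by
  refine ⟨fun k => tr_mem_St (hx.1 k) g, ?_⟩
  rw [← hx.2]
  refine sum_congr rfl fun k _ => ?_
  exact Fintype.sum_equiv (Equiv.mulLeft g⁻¹) _ _ fun h => rfl

instance : MulAction G (SS G κ) where
  smul g x := ⟨fun k => tr g (x.1 k), tr_mem_SS x.2 g⟩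
  one_smul x := Subtype.ext (funext fun k => tr_one _)
  mul_smul a b x := Subtype.ext (funext fun k => tr_mul a b _)

theorem smul_val (g : G) (x : SS G κ) (k : κ) (h : G) : (g • x).1 k h = x.1 k (g⁻¹ * h) := rfl

instance : ContinuousConstSMul G (SS G κ) where
  continuous_const_smul g := by
    refine Continuous.subtype_mk ?_ _
    refine continuous_pi fun k => continuous_pi fun h => ?_
    exact (continuous_apply (g⁻¹ * h)).comp ((continuous_apply k).comp continuous_subtype_val)

/-- the action of `G` on `SS G κ` is free -/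
theorem smul_eq_self {g : G} {x : SS G κ} (h : g • x = x) : g = 1 := by
  by_contra hg
  have h0 : ∑ k, ∑ a, x.1 k a = 0 := by
    refine sum_eq_zero fun k _ => sum_eq_zero fun a _ => ?_
    by_contra ha
    have h1 : x.1 k (g⁻¹ * a) = x.1 k a := by rw [← smul_val, h]
    have h2 := (x.2.1 k).2 (g⁻¹ * a) a (by rw [h1]; exact ha) ha
    apply hg
    have h3 : g⁻¹ * a = 1 * a := by rw [h2, one_mul]
    simpa using mul_right_cancel h3
  rw [x.2.2] at h0
  exact one_ne_zero h0

end SS

/-! ### The functions `phi` -/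

section Phi

variable {G : Type} [Group G] [Fintype G] [DecidableEq G]

/-- translation of finite sets -/
def trs (g : G) (T : Finset G) : Finset G := T.map (mulLeftEmbedding g)

theorem mem_trs {g : G} {T : Finset G} {h : G} : h ∈ trs g T ↔ g⁻¹ * h ∈ T := by
  simp only [trs, mem_map, mulLeftEmbedding_apply]
  constructor
  · rintro ⟨a, ha, rfl⟩
    simpa using ha
  · intro h'
    exact ⟨_, h', by simp⟩

theorem trs_mul (a b : G) (T : Finset G) : trs (a * b) T = trs a (trs b T) := by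
  ext h; simp [mem_trs, mul_assoc]

theorem card_trs (g : G) (T : Finset G) : (trs g T).card = T.card := card_map _

/-- `phi T r = max 0 (min over T of r - max over the complement of T of r)`, written as
`max 0 (min over pairs (s ∈ T, t ∉ T) of r s - r t)` -/
noncomputable def phi (T : Finset G) (r : G → ℝ) : ℝ :=
  if h : (T ×ˢ Tᶜ).Nonempty then max 0 ((T ×ˢ Tᶜ).inf' h fun p => r p.1 - r p.2) else 0

theorem phi_nonneg (T : Finset G) (r : G → ℝ) : 0 ≤ phi T r := by
  unfold phi; split_ifs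
  · exact le_max_left _ _
  · exact le_rfl

theorem continuous_phi (T : Finset G) : Continuous (phi T) := by
  unfold phi
  by_cases h : (T ×ˢ Tᶜ).Nonempty
  · simp only [h, dif_pos]
    refine continuous_const.max ?_
    exact Continuous.finset_inf'_apply h fun p _ =>
      (continuous_apply p.1).sub (continuous_apply p.2)
  · simp only [h, dif_neg, not_false_eq_true]
    exact continuous_const

theorem lt_of_phi_ne_zero {T : Finset G} {r : G → ℝ} (h : phi T r ≠ 0) {s t : G} (hs : s ∈ T)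
    (ht : t ∉ T) : r t < r s := by
  have hne : (T ×ˢ Tᶜ).Nonempty := ⟨(s, t), by simp [hs, ht]⟩
  unfold phi at h
  rw [dif_pos hne] at h
  have h1 : 0 < (T ×ˢ Tᶜ).inf' hne fun p => r p.1 - r p.2 := by
    by_contra h2
    exact h (max_eq_left (not_lt.mp h2))
  have h3 := (lt_inf'_iff hne).mp h1 (s, t) (by simp [hs, ht])
  simpa using h3

theorem phi_pos {T : Finset G} {r : G → ℝ} (hne : T.Nonempty) (hne' : Tᶜ.Nonempty)
    (h : ∀ s ∈ T, ∀ t ∉ T, r t < r s) : 0 < phi T r := by
  have hne2 : (T ×ˢ Tᶜ).Nonempty := hne.product hne'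
  unfold phi
  rw [dif_pos hne2]
  refine lt_max_of_lt_right ((lt_inf'_iff hne2).mpr fun p hp => ?_)
  rw [mem_product, mem_compl] at hp
  exact sub_pos.mpr (h _ hp.1 _ hp.2)

theorem phi_trs (h : G) (T : Finset G) (r : G → ℝ) : phi T (tr h r) = phi (trs h⁻¹ T) r := by
  have key : ∀ {a : ℝ} (_ : 0 ≤ a) (T : Finset G) (r : G → ℝ),
      a < phi T r ↔ (T ×ˢ Tᶜ).Nonempty ∧ ∀ s ∈ T, ∀ t ∉ T, a < r s - r t := by
    intro a ha T r
    unfold phi
    by_cases hne : (T ×ˢ Tᶜ).Nonempty
    · rw [dif_pos hne]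
      rw [lt_max_iff, lt_inf'_iff]
      simp only [hne, true_and, not_lt.mpr ha, false_or, mem_product, mem_compl]
      exact ⟨fun H s hs t ht => H (s, t) ⟨hs, ht⟩, fun H p hp => H _ hp.1 _ hp.2⟩
    · rw [dif_neg hne]
      simp [hne, ha]
  have key2 : ∀ (T : Finset G), (T ×ˢ Tᶜ).Nonempty ↔ (∃ s, s ∈ T) ∧ ∃ t, t ∉ T := by
    intro T
    rw [nonempty_product]
    simp only [Finset.Nonempty, mem_compl]
  have : ∀ a : ℝ, 0 ≤ a → (a < phi T (tr h r) ↔ a < phi (trs h⁻¹ T) r) := by
    intro a ha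
    rw [key ha, key ha, key2, key2]
    simp only [mem_trs, tr_apply, inv_inv]
    refine and_congr (and_congr ⟨?_, ?_⟩ ⟨?_, ?_⟩) ⟨?_, ?_⟩
    · rintro ⟨s, hs⟩; exact ⟨h⁻¹ * s, by simpa using hs⟩
    · rintro ⟨s, hs⟩; exact ⟨_, hs⟩
    · rintro ⟨s, hs⟩; exact ⟨h⁻¹ * s, by simpa using hs⟩
    · rintro ⟨s, hs⟩; exact ⟨_, hs⟩
    · intro H s hs t ht
      simpa using H (h * s) hs (h * t) ht
    · intro H s hs t ht
      exact H (h⁻¹ * s) (by simpa using hs) (h⁻¹ * t) (by simpa using ht)
  refine le_antisymm ?_ ?_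
  · by_contra hlt
    exact lt_irrefl _ ((this _ (phi_nonneg _ _)).mp (not_le.mp hlt))
  · by_contra hlt
    exact lt_irrefl _ ((this _ (phi_nonneg _ _)).mpr (not_le.mp hlt))

/-- the function `g ↦ phi (g T) r` -/
noncomputable def psi (T : Finset G) (r : G → ℝ) : G → ℝ := fun g => phi (trs g T) r

theorem continuous_psi (T : Finset G) : Continuous (psi T) :=
  continuous_pi fun g => continuous_phi (trs g T)

theorem psi_tr (h : G) (T : Finset G) (r : G → ℝ) : psi T (tr h r) = tr h (psi T r) := by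
  funext g
  simp only [psi, tr_apply, phi_trs, trs_mul]

/-- two upper level sets of the same cardinality are equal -/
theorem eq_of_phi_ne_zero {S T : Finset G} {r : G → ℝ} (hc : S.card = T.card)
    (hS : phi S r ≠ 0) (hT : phi T r ≠ 0) : S = T := by
  by_contra hne
  have h1 : ¬ S ⊆ T := fun h => hne (eq_of_subset_of_card_le h hc.ge)
  have h2 : ¬ T ⊆ S := fun h => hne (eq_of_subset_of_card_le h hc.le).symm
  obtain ⟨s, hs, hs'⟩ := not_subset.mp h1
  obtain ⟨t, ht, ht'⟩ := not_subset.mp h2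
  exact lt_asymm (lt_of_phi_ne_zero hS hs ht') (lt_of_phi_ne_zero hT ht hs')

theorem psi_mem_St {T : Finset G} (hT : ∀ g : G, trs g T = T → g = 1) (r : G → ℝ) :
    psi T r ∈ St G := by
  refine ⟨fun g => phi_nonneg _ _, fun g h hg hh => ?_⟩
  have h1 : trs g T = trs h T :=
    eq_of_phi_ne_zero (by rw [card_trs, card_trs]) hg hh
  have h2 : trs (h⁻¹ * g) T = T := by
    rw [trs_mul, h1, ← trs_mul, inv_mul_cancel]
    ext a; simp [mem_trs]
  have h3 := hT _ h2
  exact (inv_mul_eq_one.mp h3).symm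

/-- In a group of prime order every proper nonempty subset has trivial stabilizer. -/
theorem trs_eq_self {T : Finset G} (hp : (Fintype.card G).Prime) (hne : T.Nonempty)
    (hne' : Tᶜ.Nonempty) (g : G) (h : trs g T = T) : g = 1 := by
  by_contra hg
  haveI : Fact (Nat.card G).Prime := ⟨by rwa [Nat.card_eq_fintype_card]⟩
  obtain ⟨a, ha⟩ := hne
  obtain ⟨b, hb⟩ := hne'
  rw [mem_compl] at hb
  have hpow : ∀ (n : ℕ) (x : G), x ∈ T → g ^ n * x ∈ T := by
    intro n
    induction n with
    | zero => intro x hx; simpa using hx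
    | succ n ih =>
      intro x hx
      rw [pow_succ', mul_assoc]
      have h1 := ih x hx
      rw [← h, mem_trs]
      simpa using h1
  have hmem : b * a⁻¹ ∈ Subgroup.zpowers g := by
    have : Subgroup.zpowers g = ⊤ := zpowers_eq_top_of_prime_card (p := Nat.card G) rfl hg
    rw [this]; trivial
  rw [← mem_powers_iff_mem_zpowers] at hmem
  obtain ⟨n, hn⟩ := hmem
  apply hb
  have h2 := hpow n a ha
  have hn' : g ^ n = b * a⁻¹ := hn
  rw [hn'] at h2
  simpa using h2

end Phi

/-! ### The equivariant map to `SS` -/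

section Map

variable {G : Type} [Group G] [Fintype G] [DecidableEq G]

/-- the proper nonempty subsets -/
def PS (G : Type) [Fintype G] [DecidableEq G] : Type := {T : Finset G // T.Nonempty ∧ Tᶜ.Nonempty}

noncomputable instance : Fintype (PS G) := by unfold PS; infer_instance

variable {Ω : Type} [TopologicalSpace Ω] [MulAction G Ω] {ι : Type} [Fintype ι]

/-- the function `g ↦ ψ (g⁻¹ • ω)` -/
def orbF (ψ : Ω → ℝ) (ω : Ω) : G → ℝ := fun g => ψ (g⁻¹ • ω)

theorem orbF_smul (ψ : Ω → ℝ) (h : G) (ω : Ω) : orbF ψ (h • ω) = tr h (orbF (G := G) ψ ω) := by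
  funext g
  simp [orbF, mul_smul]

/-- the unnormalised family -/
noncomputable def pre (ψ : ι → Ω → ℝ) (ω : Ω) : ι × PS G → G → ℝ :=
  fun q => psi q.2.1 (orbF (ψ q.1) ω)

theorem pre_smul (ψ : ι → Ω → ℝ) (h : G) (ω : Ω) (q : ι × PS G) :
    pre ψ (h • ω) q = tr h (pre ψ ω q) := by
  simp only [pre, orbF_smul, psi_tr]

theorem pre_mem_St (hp : (Fintype.card G).Prime) (ψ : ι → Ω → ℝ) (ω : Ω) (q : ι × PS G) :
    pre ψ ω q ∈ St G :=
  psi_mem_St (fun g hg => trs_eq_self hp q.2.2.1 q.2.2.2 g hg) _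

theorem continuous_pre [ContinuousConstSMul G Ω] {ψ : ι → Ω → ℝ} (hψ : ∀ i, Continuous (ψ i)) :
    Continuous (pre (G := G) ψ) := by
  refine continuous_pi fun q => (continuous_psi _).comp ?_
  exact continuous_pi fun g => (hψ q.1).comp (continuous_const_smul _)

/-- the total sum -/
noncomputable def tot (ψ : ι → Ω → ℝ) (ω : Ω) : ℝ := ∑ q : ι × PS G, ∑ g, pre ψ ω q g

theorem tot_pos (ψ : ι → Ω → ℝ) (ω : Ω)
    (h : ∃ i, ∃ g g' : G, ψ i (g • ω) ≠ ψ i (g' • ω)) : 0 < tot (G := G) ψ ω := by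
  obtain ⟨i, g, g', hg⟩ := h
  set r : G → ℝ := orbF (ψ i) ω with hr
  obtain ⟨m, -, hm⟩ := exists_max_image (univ : Finset G) r ⟨1, mem_univ _⟩
  set T : Finset G := univ.filter fun a => r a = r m with hT
  have hTne : T.Nonempty := ⟨m, by simp [hT]⟩
  have hTne' : Tᶜ.Nonempty := by
    rw [nonempty_iff_ne_empty]
    intro h0
    rw [compl_eq_empty_iff] at h0
    have h1 : ∀ a, r a = r m := fun a => by
      have : a ∈ T := by rw [h0]; exact mem_univ a
      simpa [hT] using this
    apply hg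
    have e1 : r g⁻¹ = ψ i (g • ω) := by simp [hr, orbF]
    have e2 : r g'⁻¹ = ψ i (g' • ω) := by simp [hr, orbF]
    rw [← e1, ← e2]
    exact (h1 _).trans (h1 _).symm
  have hpos : 0 < phi T r := phi_pos hTne hTne' fun s hs t ht => by
    have h1 : r s = r m := by simpa [hT] using hs
    have h2 : r t ≠ r m := by simpa [hT] using ht
    rw [h1]
    exact lt_of_le_of_ne (hm t (mem_univ t)) h2
  have hnn : ∀ (q : ι × PS G) (g : G), 0 ≤ pre ψ ω q g := fun q g => phi_nonneg _ _
  have h1 : pre ψ ω (i, ⟨T, hTne, hTne'⟩) 1 = phi T r := by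
    simp only [pre, psi]
    congr 1
    ext a; simp [mem_trs]
  calc 0 < pre ψ ω (i, ⟨T, hTne, hTne'⟩) 1 := by rw [h1]; exact hpos
    _ ≤ ∑ g, pre ψ ω (i, ⟨T, hTne, hTne'⟩) g :=
        single_le_sum (f := fun g => pre ψ ω (i, ⟨T, hTne, hTne'⟩) g) (fun g _ => hnn _ g)
          (mem_univ 1)
    _ ≤ tot ψ ω := single_le_sum (f := fun q => ∑ g, pre ψ ω q g)
        (fun q _ => sum_nonneg fun g _ => hnn q g) (mem_univ _)

theorem tot_smul (ψ : ι → Ω → ℝ) (h : G) (ω : Ω) : tot (G := G) ψ (h • ω) = tot (G := G) ψ ω := by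
  unfold tot
  refine sum_congr rfl fun q _ => ?_
  rw [pre_smul]
  exact Fintype.sum_equiv (Equiv.mulLeft h⁻¹) _ _ fun a => rfl

/-- **The equivariant map to the sphere of stars.** -/
noncomputable def toSS (hp : (Fintype.card G).Prime) (ψ : ι → Ω → ℝ)
    (h : ∀ ω, ∃ i, ∃ g g' : G, ψ i (g • ω) ≠ ψ i (g' • ω)) (ω : Ω) : SS G (ι × PS G) :=
  ⟨fun q => (tot (G := G) ψ ω)⁻¹ • pre ψ ω q,
    fun q => smul_mem_St (pre_mem_St hp ψ ω q) (inv_nonneg.mpr (tot_pos ψ ω (h ω)).le), by
      simp only [Pi.smul_apply, smul_eq_mul, ← mul_sum]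
      exact inv_mul_cancel₀ (tot_pos ψ ω (h ω)).ne'⟩

theorem toSS_smul (hp : (Fintype.card G).Prime) (ψ : ι → Ω → ℝ)
    (h : ∀ ω, ∃ i, ∃ g g' : G, ψ i (g • ω) ≠ ψ i (g' • ω)) (g : G) (ω : Ω) :
    toSS hp ψ h (g • ω) = g • toSS hp ψ h ω := by
  refine Subtype.ext (funext fun q => funext fun a => ?_)
  change (tot (G := G) ψ (g • ω))⁻¹ * pre ψ (g • ω) q a = (tot (G := G) ψ ω)⁻¹ * pre ψ ω q (g⁻¹ * a)
  rw [tot_smul, pre_smul]
  rfl

theorem continuous_toSS [ContinuousConstSMul G Ω] (hp : (Fintype.card G).Prime) {ψ : ι → Ω → ℝ}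
    (hψ : ∀ i, Continuous (ψ i))
    (h : ∀ ω, ∃ i, ∃ g g' : G, ψ i (g • ω) ≠ ψ i (g' • ω)) : Continuous (toSS hp ψ h) := by
  refine Continuous.subtype_mk (continuous_pi fun q => ?_) _
  have h1 : Continuous (pre (G := G) ψ) := continuous_pre hψ
  have h2 : Continuous (tot (G := G) ψ) := by
    refine continuous_finsetSum _ fun q _ => continuous_finsetSum _ fun g _ => ?_
    exact (continuous_apply g).comp ((continuous_apply q).comp h1)
  exact (h2.inv₀ fun ω => (tot_pos ψ ω (h ω)).ne').smul ((continuous_apply q).comp h1)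

end Map

end Vale.Agent.P093.N2.Star
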