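import Vale.Agent.P093.N2.StarMap
import Mathlib.Topology.UnitInterval
import Mathlib.Analysis.Normed.Group.Constructions
import Mathlib.Analysis.SpecialFunctions.Log.Basic

/-!
# P093, part N2: the pairs `{0} ⊂ SP G κ` and `SS G (Fin M) ⊂ SS G (Fin (M + 1))`

* `ENDR G Z S` : equivariant deformation data of a closed invariant subset `S` of a `G`-space `Z`;
* `SP G κ` : the power of the star (closed in `κ → G → ℝ`);
* `SP.endr : ENDR G (SP G κ) {z | z.1 = 0}`; the complement is `SS G κ × ℝ` (`SP.b`, `SP.homeo`);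
* `SS.endr : ENDR G (SS G (Fin (M + 1))) {x | x.1 (Fin.last M) = 0}`; the subset is the image of the
  closed embedding `SS.a` of `SS G (Fin M)`, the complement is the image of the open embedding
  `SS.b` of `G × SP G (Fin M)` (`G` acting by left translation on `G` only).
-/

open Finset Topology Filter

namespace Vale.Agent.P093.N2.Star

/-- Equivariant deformation data (`u`, `h`) of a closed invariant subset `S` of a `G`-space `Z`,
with `h` an honest proper map. -/
structure ENDR (G : Type) (Z : Type) [TopologicalSpace Z] [SMul G Z] (S : Set Z) where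
  /-- the function with zero set `S` -/
  u : Z → unitInterval
  u_cont : Continuous u
  /-- the deformation -/
  h : Z × unitInterval → Z
  h_cont : Continuous h
  h_proper : Tendsto h (cocompact (Z × unitInterval)) (cocompact Z)
  u_smul : ∀ (g : G) (z : Z), u (g • z) = u z
  h_smul : ∀ (g : G) (z : Z) (t : unitInterval), h (g • z, t) = g • h (z, t)
  u_eq_zero : ∀ z, u z = 0 ↔ z ∈ S
  h_zero : ∀ z, h (z, 0) = z
  h_mem : ∀ z ∈ S, ∀ t, h (z, t) = z
  h_lt : ∀ z t, u z < t → h (z, t) ∈ S

/-! ### The power of the star -/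

section SP

variable (G : Type) (κ : Type) [Group G]

/-- The power of the star. -/
def SP : Set (κ → G → ℝ) := {x | ∀ k, x k ∈ St G}

variable {G κ}

theorem isClosed_SP : IsClosed (SP G κ) := by
  change IsClosed {x : κ → G → ℝ | ∀ k, x k ∈ St G}
  rw [Set.ofPred_forall]
  exact isClosed_iInter fun k => isClosed_St.preimage (continuous_apply k)

instance [Finite G] [Finite κ] : LocallyCompactSpace (SP G κ) :=
  isClosed_SP.locallyCompactSpace

instance : MulAction G (SP G κ) where
  smul g x := ⟨fun k => tr g (x.1 k), fun k => tr_mem_St (x.2 k) g⟩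
  one_smul _ := Subtype.ext (funext fun _ => tr_one _)
  mul_smul a b _ := Subtype.ext (funext fun _ => tr_mul a b _)

theorem SP.smul_val (g : G) (x : SP G κ) (k : κ) (h : G) :
    (g • x).1 k h = x.1 k (g⁻¹ * h) := rfl

instance : ContinuousConstSMul G (SP G κ) where
  continuous_const_smul g := by
    refine Continuous.subtype_mk ?_ _
    refine continuous_pi fun k => continuous_pi fun h => ?_
    exact (continuous_apply (g⁻¹ * h)).comp ((continuous_apply k).comp continuous_subtype_val)

theorem SP.continuous_val (k : κ) (g : G) : Continuous fun z : SP G κ => z.1 k g :=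
  (continuous_apply g).comp ((continuous_apply k).comp continuous_subtype_val)

/-- the point zero -/
def SP.zero : SP G κ := ⟨0, fun _ => zero_mem_St⟩

@[simp] theorem SP.smul_zero (g : G) : g • (SP.zero : SP G κ) = SP.zero := rfl

end SP

section SP1

variable {G : Type} [Group G] [Fintype G] {κ : Type} [Fintype κ]

theorem SP.isCompact_norm_le (R : ℝ) : IsCompact {z : SP G κ | ‖z.1‖ ≤ R} := by
  have h := isClosed_SP (G := G) (κ := κ) |>.isClosedEmbedding_subtypeVal.isCompact_preimage
    (isCompact_closedBall (0 : κ → G → ℝ) R)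
  convert h using 1
  ext z
  simp

theorem SP.norm_smul (g : G) (z : SP G κ) : ‖(g • z).1‖ = ‖z.1‖ := by
  have key : ∀ (g : G) (z : SP G κ), ‖(g • z).1‖ ≤ ‖z.1‖ := by
    intro g z
    refine (pi_norm_le_iff_of_nonneg (norm_nonneg _)).mpr fun k => ?_
    refine (pi_norm_le_iff_of_nonneg (norm_nonneg _)).mpr fun h => ?_
    rw [SP.smul_val]
    exact (norm_le_pi_norm (z.1 k) _).trans (norm_le_pi_norm z.1 k)
  refine le_antisymm (key g z) ?_
  have h := key g⁻¹ (g • z)
  rwa [inv_smul_smul] at h

theorem SP.le_norm (z : SP G κ) (k : κ) (g : G) : z.1 k g ≤ ‖z.1‖ :=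
  (Real.le_norm_self _).trans ((norm_le_pi_norm (z.1 k) g).trans (norm_le_pi_norm z.1 k))

/-- cutting off: `(z, t) ↦ max (z - t) 0` -/
noncomputable def SP.cut (z : SP G κ) (t : unitInterval) : SP G κ :=
  ⟨fun k g => max (z.1 k g - t) 0, fun k => by
    refine ⟨fun g => le_max_right _ _, fun g h hg hh => (z.2 k).2 g h ?_ ?_⟩
    · intro h0
      apply hg
      change max (z.1 k g - t) 0 = 0
      rw [h0]
      exact max_eq_right (by simpa using t.2.1)
    · intro h0
      apply hh
      change max (z.1 k h - t) 0 = 0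
      rw [h0]
      exact max_eq_right (by simpa using t.2.1)⟩

theorem SP.cut_val (z : SP G κ) (t : unitInterval) (k : κ) (g : G) :
    (SP.cut z t).1 k g = max (z.1 k g - t) 0 := rfl

theorem SP.continuous_cut : Continuous fun p : SP G κ × unitInterval => SP.cut p.1 p.2 := by
  refine Continuous.subtype_mk ?_ _
  refine continuous_pi fun k => continuous_pi fun g => Continuous.max ?_ continuous_const
  exact ((SP.continuous_val k g).comp continuous_fst).sub
    (continuous_subtype_val.comp continuous_snd)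

theorem SP.norm_le_cut (z : SP G κ) (t : unitInterval) : ‖z.1‖ ≤ ‖(SP.cut z t).1‖ + 1 := by
  refine (pi_norm_le_iff_of_nonneg (by positivity)).mpr fun k => ?_
  refine (pi_norm_le_iff_of_nonneg (by positivity)).mpr fun h => ?_
  rw [Real.norm_of_nonneg ((z.2 k).1 h)]
  have h1 := SP.le_norm (SP.cut z t) k h
  rw [SP.cut_val] at h1
  have h2 := (le_max_left (z.1 k h - (t : ℝ)) 0).trans h1
  have h3 := t.2.2
  linarith

theorem SP.tendsto_cut : Tendsto (fun p : SP G κ × unitInterval => SP.cut p.1 p.2)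
    (cocompact (SP G κ × unitInterval)) (cocompact (SP G κ)) := by
  rw [(hasBasis_cocompact (X := SP G κ)).tendsto_right_iff]
  intro K hK
  obtain ⟨R, hR⟩ : ∃ R : ℝ, ∀ z ∈ K, ‖z.1‖ ≤ R := by
    obtain ⟨R, hR⟩ := (hK.image (f := fun z : SP G κ => ‖z.1‖)
      (continuous_subtype_val.norm)).bddAbove
    exact ⟨R, fun z hz => hR ⟨z, hz, rfl⟩⟩
  have hC : IsCompact ({z : SP G κ | ‖z.1‖ ≤ R + 1} ×ˢ (Set.univ : Set unitInterval)) :=
    (SP.isCompact_norm_le (R + 1)).prod isCompact_univ
  refine Filter.mem_of_superset hC.compl_mem_cocompact ?_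
  rintro ⟨z, t⟩ hz hmem
  apply hz
  refine ⟨?_, Set.mem_univ _⟩
  have h1 := hR _ hmem
  have h2 := SP.norm_le_cut z t
  show ‖z.1‖ ≤ R + 1
  simp only at h1
  linarith

theorem SP.cut_smul (g : G) (z : SP G κ) (t : unitInterval) :
    SP.cut (g • z) t = g • SP.cut z t := rfl

/-- **Deformation data of `{0}` in the power of the star.** -/
noncomputable def SP.endr : ENDR G (SP G κ) {z | z.1 = 0} where
  u z := ⟨min 1 ‖z.1‖, le_min zero_le_one (norm_nonneg _), min_le_left _ _⟩
  u_cont := Continuous.subtype_mk (continuous_const.min continuous_subtype_val.norm) _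
  h p := SP.cut p.1 p.2
  h_cont := SP.continuous_cut
  h_proper := SP.tendsto_cut
  u_smul g z := by
    apply Subtype.ext
    simp only [SP.norm_smul]
  h_smul g z t := SP.cut_smul g z t
  u_eq_zero z := by
    rw [Subtype.ext_iff]
    simp only [Set.Icc.coe_zero, Set.mem_ofPred_eq]
    constructor
    · intro h
      rcases min_choice (1 : ℝ) ‖z.1‖ with h1 | h1
      · rw [h1] at h; exact absurd h one_ne_zero
      · rw [h1] at h; exact norm_eq_zero.mp h
    · intro h
      rw [h, norm_zero]
      exact min_eq_right zero_le_one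
  h_zero z := by
    refine Subtype.ext (funext fun k => funext fun g => ?_)
    rw [SP.cut_val]
    simpa using (z.2 k).1 g
  h_mem z hz t := by
    refine Subtype.ext (funext fun k => funext fun g => ?_)
    rw [SP.cut_val, hz]
    simpa using t.2.1
  h_lt z t h := by
    refine funext fun k => funext fun g => ?_
    rw [SP.cut_val]
    have h0 : min 1 ‖z.1‖ < (t : ℝ) := h
    have h1 : ‖z.1‖ < t := by
      rcases min_lt_iff.mp h0 with h2 | h2
      · exact absurd t.2.2 (not_le.mpr h2)
      · exact h2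
    exact max_eq_right (by linarith [SP.le_norm z k g])

/-- the sum of all values -/
noncomputable def SP.tot (z : SP G κ) : ℝ := ∑ k, ∑ g, z.1 k g

theorem SP.continuous_tot : Continuous (SP.tot : SP G κ → ℝ) :=
  continuous_finsetSum _ fun k _ => continuous_finsetSum _ fun g _ => SP.continuous_val k g

theorem SP.tot_nonneg (z : SP G κ) : 0 ≤ SP.tot z :=
  sum_nonneg fun k _ => sum_nonneg fun g _ => (z.2 k).1 g

theorem SP.tot_smul (g : G) (z : SP G κ) : SP.tot (g • z) = SP.tot z := by
  unfold SP.tot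
  refine sum_congr rfl fun k _ => ?_
  exact Fintype.sum_equiv (Equiv.mulLeft g⁻¹) _ _ fun h => rfl

theorem SP.le_tot (z : SP G κ) (k : κ) (g : G) : z.1 k g ≤ SP.tot z :=
  calc z.1 k g ≤ ∑ g, z.1 k g := single_le_sum (f := fun g => z.1 k g) (fun g _ => (z.2 k).1 g)
        (mem_univ g)
    _ ≤ ∑ k, ∑ g, z.1 k g := single_le_sum (f := fun k => ∑ g, z.1 k g)
        (fun k _ => sum_nonneg fun g _ => (z.2 k).1 g) (mem_univ k)

theorem SP.tot_pos {z : SP G κ} (h : z.1 ≠ 0) : 0 < SP.tot z := by
  by_contra hlt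
  apply h
  funext k g
  exact le_antisymm ((SP.le_tot z k g).trans (not_lt.mp hlt)) ((z.2 k).1 g)

/-- multiplication by a nonnegative real number -/
noncomputable def SP.scale (c : ℝ) (hc : 0 ≤ c) (z : SP G κ) : SP G κ :=
  ⟨c • z.1, fun k => smul_mem_St (z.2 k) hc⟩

/-- **The complement of zero in the power of the star** is the sphere times a line. -/
noncomputable def SP.homeo : SS G κ × ℝ ≃ₜ {z : SP G κ // z.1 ≠ 0} where
  toFun p := ⟨⟨Real.exp p.2 • p.1.1, fun k => smul_mem_St (p.1.2.1 k) (Real.exp_pos _).le⟩, by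
    intro h0
    have h1 : p.1.1 = 0 := (smul_eq_zero.mp h0).resolve_left (Real.exp_pos _).ne'
    have h2 := p.1.2.2
    rw [h1] at h2
    simp at h2⟩
  invFun z := (⟨(SP.tot z.1)⁻¹ • z.1.1,
    fun k => smul_mem_St (z.1.2 k) (inv_nonneg.mpr (SP.tot_pos z.2).le), by
      simp only [Pi.smul_apply, smul_eq_mul, ← mul_sum]
      exact inv_mul_cancel₀ (SP.tot_pos z.2).ne'⟩, Real.log (SP.tot z.1))
  left_inv p := by
    have h : SP.tot (⟨Real.exp p.2 • p.1.1,
        fun k => smul_mem_St (p.1.2.1 k) (Real.exp_pos _).le⟩ : SP G κ) = Real.exp p.2 := by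
      simp only [SP.tot, Pi.smul_apply, smul_eq_mul, ← mul_sum, p.1.2.2, mul_one]
    refine Prod.ext (Subtype.ext ?_) ?_
    · simp only [h]
      exact inv_smul_smul₀ (Real.exp_pos _).ne' _
    · simp only [h, Real.log_exp]
  right_inv z := by
    refine Subtype.ext (Subtype.ext ?_)
    simp only [Real.exp_log (SP.tot_pos z.2)]
    exact smul_inv_smul₀ (SP.tot_pos z.2).ne' _
  continuous_toFun := by
    refine Continuous.subtype_mk (Continuous.subtype_mk ?_ _) _
    exact (Real.continuous_exp.comp continuous_snd).smul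
      (continuous_subtype_val.comp continuous_fst)
  continuous_invFun := by
    have h : Continuous fun z : {z : SP G κ // z.1 ≠ 0} => SP.tot z.1 :=
      SP.continuous_tot.comp continuous_subtype_val
    refine Continuous.prodMk (Continuous.subtype_mk ?_ _) ?_
    · exact (h.inv₀ fun z => (SP.tot_pos z.2).ne').smul
        (continuous_subtype_val.comp continuous_subtype_val)
    · exact h.log fun z => (SP.tot_pos z.2).ne'

theorem SP.homeo_val (x : SS G κ) (r : ℝ) (k : κ) (g : G) :
    (SP.homeo (x, r)).1.1 k g = Real.exp r * x.1 k g := rfl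

/-- the open embedding of the complement of zero -/
noncomputable def SP.b (p : SS G κ × ℝ) : SP G κ := (SP.homeo p).1

theorem SP.isOpen_ne : IsOpen {z : SP G κ | z.1 ≠ 0} :=
  (isClosed_eq continuous_subtype_val continuous_const).isOpen_compl

theorem SP.isOpenEmbedding_b : IsOpenEmbedding (SP.b : SS G κ × ℝ → SP G κ) :=
  (SP.isOpen_ne.isOpenEmbedding_subtypeVal).comp SP.homeo.isOpenEmbedding

theorem SP.range_b : Set.range (SP.b : SS G κ × ℝ → SP G κ) = {z | z.1 ≠ 0} := by
  ext z
  constructor
  · rintro ⟨p, rfl⟩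
    exact (SP.homeo p).2
  · intro hz
    exact ⟨SP.homeo.symm ⟨z, hz⟩, by simp [SP.b]⟩

theorem SP.b_smul (g : G) (x : SS G κ) (r : ℝ) :
    SP.b (g • x, r) = g • SP.b (x, r) := rfl

/-- the closed embedding of zero -/
def SP.a (_ : Unit) : SP G κ := SP.zero

theorem SP.isClosedEmbedding_a : IsClosedEmbedding (SP.a : Unit → SP G κ) :=
  (continuous_const).isClosedEmbedding (fun _ _ _ => rfl)

theorem SP.range_a : Set.range (SP.a : Unit → SP G κ) = {z | z.1 = 0} := by
  ext z
  constructor
  · rintro ⟨p, rfl⟩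
    rfl
  · intro hz
    exact ⟨(), Subtype.ext (Eq.symm hz)⟩

end SP1

/-! ### The sphere of the star -/

section SS1

variable {G : Type} [Group G] [Fintype G]

theorem exists_leg {f : G → ℝ} (hf : f ∈ St G) : ∃ a, ∀ g, g ≠ a → f g = 0 := by
  by_cases h : ∃ a, f a ≠ 0
  · obtain ⟨a, ha⟩ := h
    refine ⟨a, fun g hg => ?_⟩
    by_contra h0
    exact hg (hf.2 g a h0 ha)
  · push_neg at h
    exact ⟨1, fun g _ => h g⟩

theorem sum_cut {f : G → ℝ} (hf : f ∈ St G) {m : ℝ} (h0 : 0 ≤ m) (h1 : m ≤ ∑ g, f g) :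
    ∑ g, max (f g - m) 0 = ∑ g, f g - m := by
  obtain ⟨a, ha⟩ := exists_leg hf
  have h2 : ∑ g, f g = f a := sum_eq_single a (fun g _ hg => ha g hg) (by simp)
  have h3 : ∑ g, max (f g - m) 0 = max (f a - m) 0 := by
    refine sum_eq_single a (fun g _ hg => ?_) (by simp)
    rw [ha g hg]
    exact max_eq_right (by linarith)
  rw [h3, h2]
  rw [h2] at h1
  exact max_eq_left (by linarith)

variable {κ : Type} [Fintype κ]

theorem SS.continuous_val (k : κ) (g : G) : Continuous fun z : SS G κ => z.1 k g :=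
  (continuous_apply g).comp ((continuous_apply k).comp continuous_subtype_val)

/-- the mass of one factor -/
noncomputable def SS.mass (k : κ) (x : SS G κ) : ℝ := ∑ g, x.1 k g

theorem SS.continuous_mass (k : κ) : Continuous (SS.mass k : SS G κ → ℝ) :=
  continuous_finsetSum _ fun g _ => SS.continuous_val k g

theorem SS.mass_nonneg (k : κ) (x : SS G κ) : 0 ≤ SS.mass k x :=
  sum_nonneg fun g _ => (x.2.1 k).1 g

theorem SS.le_mass (k : κ) (x : SS G κ) (g : G) : x.1 k g ≤ SS.mass k x :=
  single_le_sum (f := fun g => x.1 k g) (fun g _ => (x.2.1 k).1 g) (mem_univ g)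

theorem SS.mass_smul (k : κ) (g : G) (x : SS G κ) : SS.mass k (g • x) = SS.mass k x :=
  Fintype.sum_equiv (Equiv.mulLeft g⁻¹) _ _ fun _ => rfl

theorem SS.mass_eq_zero {k : κ} {x : SS G κ} : SS.mass k x = 0 ↔ x.1 k = 0 := by
  constructor
  · intro h
    funext g
    exact le_antisymm ((SS.le_mass k x g).trans h.le) ((x.2.1 k).1 g)
  · intro h
    simp [SS.mass, h]

variable [DecidableEq κ] (k₀ : κ)

/-- the amount which is cut off -/
noncomputable def SS.amt (x : SS G κ) (t : unitInterval) : ℝ := min (SS.mass k₀ x) ((t : ℝ) / 2)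

theorem SS.amt_nonneg (x : SS G κ) (t : unitInterval) : 0 ≤ SS.amt k₀ x t :=
  le_min (SS.mass_nonneg k₀ x) (by have := t.2.1; positivity)

theorem SS.amt_lt_one (x : SS G κ) (t : unitInterval) : SS.amt k₀ x t < 1 := by
  have h1 : SS.amt k₀ x t ≤ t / 2 := min_le_right _ _
  have h2 := t.2.2
  linarith

theorem SS.continuous_amt :
    Continuous fun p : SS G κ × unitInterval => SS.amt k₀ p.1 p.2 :=
  ((SS.continuous_mass k₀).comp continuous_fst).min
    ((continuous_subtype_val.comp continuous_snd).div_const 2)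

/-- the unnormalised deformation -/
noncomputable def SS.pre (x : SS G κ) (t : unitInterval) (k : κ) (g : G) : ℝ :=
  max (x.1 k g - if k = k₀ then SS.amt k₀ x t else 0) 0

theorem SS.pre_mem (x : SS G κ) (t : unitInterval) (k : κ) : SS.pre k₀ x t k ∈ St G := by
  have key : ∀ g, x.1 k g = 0 → SS.pre k₀ x t k g = 0 := by
    intro g h0
    unfold SS.pre
    rw [h0]
    refine max_eq_right ?_
    split_ifs
    · linarith [SS.amt_nonneg k₀ x t]
    · simp
  exact ⟨fun g => le_max_right _ _, fun g h hg hh => (x.2.1 k).2 g h (fun h0 => hg (key g h0))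
    (fun h0 => hh (key h h0))⟩

theorem SS.sum_pre (x : SS G κ) (t : unitInterval) :
    ∑ k, ∑ g, SS.pre k₀ x t k g = 1 - SS.amt k₀ x t := by
  have h : ∀ k, ∑ g, SS.pre k₀ x t k g = SS.mass k x - if k = k₀ then SS.amt k₀ x t else 0 := by
    intro k
    unfold SS.pre
    refine sum_cut (x.2.1 k) ?_ ?_
    · split_ifs
      · exact SS.amt_nonneg k₀ x t
      · exact le_rfl
    · split_ifs with h1
      · rw [h1]; exact min_le_left _ _
      · exact SS.mass_nonneg k x
  rw [sum_congr rfl fun k _ => h k, sum_sub_distrib]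
  have h2 : ∑ k, SS.mass k x = 1 := x.2.2
  rw [h2]
  simp

/-- the deformation -/
noncomputable def SS.push (x : SS G κ) (t : unitInterval) : SS G κ :=
  ⟨fun k => (1 - SS.amt k₀ x t)⁻¹ • SS.pre k₀ x t k, fun k =>
    smul_mem_St (SS.pre_mem k₀ x t k) (inv_nonneg.mpr (sub_nonneg.mpr (SS.amt_lt_one k₀ x t).le)),
    by
      simp only [Pi.smul_apply, smul_eq_mul, ← mul_sum, SS.sum_pre]
      exact inv_mul_cancel₀ (sub_pos.mpr (SS.amt_lt_one k₀ x t)).ne'⟩

theorem SS.continuous_push : Continuous fun p : SS G κ × unitInterval => SS.push k₀ p.1 p.2 := by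
  refine Continuous.subtype_mk (continuous_pi fun k => continuous_pi fun g =>
    Continuous.mul ?_ ?_) _
  · exact (continuous_const.sub (SS.continuous_amt k₀)).inv₀
      fun p => (sub_pos.mpr (SS.amt_lt_one k₀ p.1 p.2)).ne'
  · refine Continuous.max ?_ continuous_const
    refine ((SS.continuous_val k g).comp continuous_fst).sub ?_
    by_cases hk : k = k₀
    · simp only [hk, if_true]
      exact SS.continuous_amt k₀
    · simp only [hk, if_false]
      exact continuous_const

theorem SS.amt_smul (g : G) (x : SS G κ) (t : unitInterval) :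
    SS.amt k₀ (g • x) t = SS.amt k₀ x t := by
  unfold SS.amt; rw [SS.mass_smul]

theorem SS.push_smul (g : G) (x : SS G κ) (t : unitInterval) :
    SS.push k₀ (g • x) t = g • SS.push k₀ x t := by
  refine Subtype.ext (funext fun k => funext fun h => ?_)
  change (1 - SS.amt k₀ (g • x) t)⁻¹ * max ((g • x).1 k h - if k = k₀ then SS.amt k₀ (g • x) t
    else 0) 0 = (1 - SS.amt k₀ x t)⁻¹ * max (x.1 k (g⁻¹ * h) - if k = k₀ then SS.amt k₀ x t
    else 0) 0
  rw [SS.amt_smul]
  rfl

theorem SS.push_of_amt {x : SS G κ} {t : unitInterval} (h : SS.amt k₀ x t = 0) :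
    SS.push k₀ x t = x := by
  refine Subtype.ext (funext fun k => funext fun g => ?_)
  change (1 - SS.amt k₀ x t)⁻¹ * max (x.1 k g - if k = k₀ then SS.amt k₀ x t else 0) 0 = x.1 k g
  rw [h]
  simp only [sub_zero, inv_one, one_mul, ite_self]
  exact max_eq_left ((x.2.1 k).1 g)

/-- **Deformation data of the vanishing of one factor in the sphere of the star.** -/
noncomputable def SS.endr : ENDR G (SS G κ) {x | x.1 k₀ = 0} where
  u x := ⟨min 1 (2 * SS.mass k₀ x), le_min zero_le_one
    (mul_nonneg zero_le_two (SS.mass_nonneg k₀ x)), min_le_left _ _⟩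
  u_cont := Continuous.subtype_mk (continuous_const.min
    (continuous_const.mul (SS.continuous_mass k₀))) _
  h p := SS.push k₀ p.1 p.2
  h_cont := SS.continuous_push k₀
  h_proper := by rw [cocompact_eq_bot]; exact tendsto_bot
  u_smul g x := by
    apply Subtype.ext
    simp only [SS.mass_smul]
  h_smul g x t := SS.push_smul k₀ g x t
  u_eq_zero x := by
    rw [Subtype.ext_iff]
    simp only [Set.Icc.coe_zero, Set.mem_ofPred_eq]
    rw [← SS.mass_eq_zero]
    have h2 := SS.mass_nonneg k₀ x
    constructor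
    · intro h
      rcases min_choice (1 : ℝ) (2 * SS.mass k₀ x) with h1 | h1
      · rw [h1] at h; exact absurd h one_ne_zero
      · rw [h1] at h; linarith
    · intro h
      rw [h, mul_zero]
      exact min_eq_right zero_le_one
  h_zero x := by
    refine SS.push_of_amt k₀ ?_
    unfold SS.amt
    simpa using SS.mass_nonneg k₀ x
  h_mem x hx t := by
    refine SS.push_of_amt k₀ ?_
    unfold SS.amt
    rw [SS.mass_eq_zero.mpr hx]
    refine min_eq_left ?_
    have := t.2.1
    positivity
  h_lt x t h := by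
    have h0 : min 1 (2 * SS.mass k₀ x) < (t : ℝ) := h
    have h1 : 2 * SS.mass k₀ x < t := by
      rcases min_lt_iff.mp h0 with h2 | h2
      · exact absurd t.2.2 (not_le.mpr h2)
      · exact h2
    have h2 : SS.amt k₀ x t = SS.mass k₀ x := min_eq_left (by linarith)
    refine funext fun g => ?_
    change (1 - SS.amt k₀ x t)⁻¹ * max (x.1 k₀ g - if k₀ = k₀ then SS.amt k₀ x t else 0) 0 = 0
    rw [if_pos rfl, h2, max_eq_right (by linarith [SS.le_mass k₀ x g]), mul_zero]

end SS1

section FinM

variable {G : Type} [Group G] [Fintype G] {M : ℕ}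

/-- The closed embedding of the smaller sphere. -/
def SS.a (x : SS G (Fin M)) : SS G (Fin (M + 1)) :=
  ⟨Fin.snoc (α := fun _ => G → ℝ) x.1 0, fun k => by
    induction k using Fin.lastCases with
    | last => rw [Fin.snoc_last]; exact zero_mem_St
    | cast k => rw [Fin.snoc_castSucc]; exact x.2.1 k, by
    rw [Fin.sum_univ_castSucc]
    simp [x.2.2]⟩

theorem SS.a_castSucc (x : SS G (Fin M)) (k : Fin M) : (SS.a x).1 k.castSucc = x.1 k :=
  Fin.snoc_castSucc (α := fun _ => G → ℝ) ..

theorem SS.a_last (x : SS G (Fin M)) : (SS.a x).1 (Fin.last M) = 0 :=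
  Fin.snoc_last (α := fun _ => G → ℝ) ..

theorem SS.a_smul (g : G) (x : SS G (Fin M)) : SS.a (g • x) = g • SS.a x := by
  refine Subtype.ext (funext fun k => funext fun h => ?_)
  rw [smul_val]
  induction k using Fin.lastCases with
  | last => rw [SS.a_last, SS.a_last]; rfl
  | cast k => rw [SS.a_castSucc, SS.a_castSucc]; rfl

theorem SS.continuous_a : Continuous (SS.a : SS G (Fin M) → SS G (Fin (M + 1))) := by
  refine Continuous.subtype_mk (continuous_pi fun k => ?_) _
  induction k using Fin.lastCases with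
  | last => simp only [Fin.snoc_last]; exact continuous_const
  | cast k =>
    simp only [Fin.snoc_castSucc]
    exact (continuous_apply k).comp continuous_subtype_val

theorem SS.a_injective : Function.Injective (SS.a : SS G (Fin M) → SS G (Fin (M + 1))) := by
  intro x y h
  refine Subtype.ext (funext fun k => ?_)
  rw [← SS.a_castSucc, h, SS.a_castSucc]

theorem SS.isClosedEmbedding_a : IsClosedEmbedding (SS.a : SS G (Fin M) → SS G (Fin (M + 1))) :=
  SS.continuous_a.isClosedEmbedding SS.a_injective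

theorem SS.range_a : Set.range (SS.a : SS G (Fin M) → SS G (Fin (M + 1))) =
    {x | x.1 (Fin.last M) = 0} := by
  ext x
  constructor
  · rintro ⟨y, rfl⟩
    exact SS.a_last y
  · intro hx
    refine ⟨⟨fun k => x.1 k.castSucc, fun k => x.2.1 _, ?_⟩, ?_⟩
    · have h := x.2.2
      rw [Fin.sum_univ_castSucc] at h
      have hx' : x.1 (Fin.last M) = 0 := hx
      simpa [hx'] using h
    · refine Subtype.ext (funext fun k => ?_)
      induction k using Fin.lastCases with
      | last => rw [SS.a_last]; exact hx.symm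
      | cast k => rw [SS.a_castSucc]

theorem SS.isEmpty : IsEmpty (SS G (Fin 0)) := ⟨fun x => by
  have := x.2.2
  simp at this⟩

end FinM

section FinB

variable {G : Type} [Group G] [Fintype G] [DecidableEq G] {M : ℕ}

/-- the normalising factor -/
noncomputable def SP.fac (z : SP G (Fin M)) : ℝ := (1 + SP.tot z)⁻¹

theorem SP.fac_pos (z : SP G (Fin M)) : 0 < SP.fac z :=
  inv_pos.mpr (by linarith [SP.tot_nonneg z])

theorem SP.continuous_fac : Continuous (SP.fac : SP G (Fin M) → ℝ) :=
  (continuous_const.add SP.continuous_tot).inv₀ fun z => by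
    have h : (0 : ℝ) < 1 + SP.tot z := by linarith [SP.tot_nonneg z]
    exact h.ne'

theorem single_mem_St (c : G) {r : ℝ} (hr : 0 ≤ r) : (Pi.single c r : G → ℝ) ∈ St G := by
  refine ⟨fun g => ?_, fun g h hg hh => ?_⟩
  · by_cases h : g = c
    · rw [h, Pi.single_eq_same]; exact hr
    · rw [Pi.single_eq_of_ne h]
  · have h1 : g = c := by
      by_contra h0; exact hg (Pi.single_eq_of_ne h0 _)
    have h2 : h = c := by
      by_contra h0; exact hh (Pi.single_eq_of_ne h0 _)
    rw [h1, h2]

/-- The open embedding of the complement. -/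
noncomputable def SS.b (p : G × SP G (Fin M)) : SS G (Fin (M + 1)) :=
  ⟨Fin.snoc (α := fun _ => G → ℝ) (fun k => SP.fac p.2 • tr p.1 (p.2.1 k))
    (Pi.single p.1 (SP.fac p.2)), fun k => by
    induction k using Fin.lastCases with
    | last => rw [Fin.snoc_last]; exact single_mem_St _ (SP.fac_pos _).le
    | cast k =>
      rw [Fin.snoc_castSucc]
      exact smul_mem_St (tr_mem_St (p.2.2 k) _) (SP.fac_pos _).le, by
    rw [Fin.sum_univ_castSucc]
    simp only [Fin.snoc_castSucc, Fin.snoc_last, sum_pi_single', mem_univ, if_true,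
      Pi.smul_apply, smul_eq_mul, ← mul_sum]
    have h : ∑ k, ∑ g, tr p.1 (p.2.1 k) g = SP.tot p.2 := SP.tot_smul p.1 p.2
    rw [h]
    have h2 : (1 + SP.tot p.2) ≠ 0 := by linarith [SP.tot_nonneg p.2]
    unfold SP.fac
    field_simp
    ring⟩

theorem SS.b_castSucc (p : G × SP G (Fin M)) (k : Fin M) (g : G) :
    (SS.b p).1 k.castSucc g = SP.fac p.2 * p.2.1 k (p.1⁻¹ * g) := by
  have h : (SS.b p).1 k.castSucc = SP.fac p.2 • tr p.1 (p.2.1 k) := by
    simp only [SS.b, Fin.snoc_castSucc]
  rw [h]; rfl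

theorem SS.b_last (p : G × SP G (Fin M)) :
    (SS.b p).1 (Fin.last M) = Pi.single p.1 (SP.fac p.2) := by
  simp only [SS.b, Fin.snoc_last]

theorem SS.b_last_apply (p : G × SP G (Fin M)) (g : G) :
    (SS.b p).1 (Fin.last M) g = if g = p.1 then SP.fac p.2 else 0 := by
  rw [SS.b_last, Pi.single_apply]

theorem SS.b_smul (g c : G) (z : SP G (Fin M)) : SS.b (g * c, z) = g • SS.b (c, z) := by
  refine Subtype.ext (funext fun k => funext fun h => ?_)
  rw [smul_val]
  induction k using Fin.lastCases with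
  | last =>
    rw [SS.b_last_apply, SS.b_last_apply]
    simp only [inv_mul_eq_iff_eq_mul]
  | cast k =>
    rw [SS.b_castSucc, SS.b_castSucc]
    simp only [mul_inv_rev, mul_assoc]

/-- the part of the sphere where the last factor does not vanish -/
def SS.opn (G : Type) [Group G] [Fintype G] (M : ℕ) : Set (SS G (Fin (M + 1))) :=
  {x | x.1 (Fin.last M) ≠ 0}

theorem SS.isOpen_opn : IsOpen (SS.opn G M) :=
  (isClosed_eq ((continuous_apply _).comp continuous_subtype_val) continuous_const).isOpen_compl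

/-- the leg of the last factor -/
noncomputable def SS.leg (x : SS G (Fin (M + 1))) : G := (exists_leg (x.2.1 (Fin.last M))).choose

theorem SS.leg_spec (x : SS G (Fin (M + 1))) (g : G) (hg : g ≠ SS.leg x) :
    x.1 (Fin.last M) g = 0 := (exists_leg (x.2.1 (Fin.last M))).choose_spec g hg

theorem SS.eq_leg {x : SS G (Fin (M + 1))} {g : G} (h : x.1 (Fin.last M) g ≠ 0) : g = SS.leg x := by
  by_contra h0
  exact h (SS.leg_spec x g h0)

theorem SS.mass_eq_leg (x : SS G (Fin (M + 1))) :
    SS.mass (Fin.last M) x = x.1 (Fin.last M) (SS.leg x) :=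
  sum_eq_single _ (fun g _ hg => SS.leg_spec x g hg) (by simp)

theorem SS.mass_pos {x : SS G (Fin (M + 1))} (h : x ∈ SS.opn G M) :
    0 < SS.mass (Fin.last M) x :=
  lt_of_le_of_ne (SS.mass_nonneg _ x) fun h0 => h (SS.mass_eq_zero.mp h0.symm)

theorem SS.leg_b (p : G × SP G (Fin M)) : SS.leg (SS.b p) = p.1 := by
  symm
  apply SS.eq_leg
  rw [SS.b_last_apply, if_pos rfl]
  exact (SP.fac_pos _).ne'

theorem SS.mass_b (p : G × SP G (Fin M)) : SS.mass (Fin.last M) (SS.b p) = SP.fac p.2 := by
  rw [SS.mass_eq_leg, SS.leg_b, SS.b_last_apply, if_pos rfl]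

/-- the inverse coordinate -/
noncomputable def SS.coord (x : SS.opn G M) : SP G (Fin M) :=
  ⟨fun k => (SS.mass (Fin.last M) x.1)⁻¹ • tr (SS.leg x.1)⁻¹ (x.1.1 k.castSucc), fun k =>
    smul_mem_St (tr_mem_St (x.1.2.1 _) _) (inv_nonneg.mpr (SS.mass_nonneg _ _))⟩

theorem SS.coord_val (x : SS.opn G M) (k : Fin M) (h : G) :
    (SS.coord x).1 k h =
      (SS.mass (Fin.last M) x.1)⁻¹ * x.1.1 k.castSucc (SS.leg x.1 * h) := by
  change _ * x.1.1 k.castSucc ((SS.leg x.1)⁻¹⁻¹ * h) = _
  rw [inv_inv]

theorem SS.coord_eq (x : SS.opn G M) (k : Fin M) (h : G) :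
    (SS.coord x).1 k h = (SS.mass (Fin.last M) x.1 ^ 2)⁻¹ *
      ∑ c, x.1.1 (Fin.last M) c * x.1.1 k.castSucc (c * h) := by
  rw [SS.coord_val, sum_eq_single (SS.leg x.1) (fun c _ hc => by rw [SS.leg_spec _ _ hc, zero_mul])
    (by simp), ← SS.mass_eq_leg]
  have h0 := (SS.mass_pos x.2).ne'
  field_simp

theorem SS.tot_coord (x : SS.opn G M) :
    SP.tot (SS.coord x) = (SS.mass (Fin.last M) x.1)⁻¹ * (1 - SS.mass (Fin.last M) x.1) := by
  have h1 : SP.tot (SS.coord x) =
      (SS.mass (Fin.last M) x.1)⁻¹ * ∑ k : Fin M, ∑ h, x.1.1 k.castSucc (SS.leg x.1 * h) := by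
    simp only [SP.tot, SS.coord_val, ← mul_sum]
  have h2 : ∑ k : Fin M, ∑ h, x.1.1 k.castSucc (SS.leg x.1 * h) =
      ∑ k : Fin M, ∑ h, x.1.1 k.castSucc h :=
    sum_congr rfl fun k _ => Fintype.sum_equiv (Equiv.mulLeft (SS.leg x.1)) _ _ fun h => rfl
  have h3 := x.1.2.2
  rw [Fin.sum_univ_castSucc] at h3
  rw [h1, h2]
  congr 1
  unfold SS.mass
  linarith

theorem SS.fac_coord (x : SS.opn G M) :
    SP.fac (SS.coord x) = SS.mass (Fin.last M) x.1 := by
  unfold SP.fac
  rw [SS.tot_coord]
  have h0 := (SS.mass_pos x.2).ne'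
  field_simp
  ring

variable [TopologicalSpace G] [DiscreteTopology G]

theorem SS.continuous_b : Continuous (SS.b : G × SP G (Fin M) → SS G (Fin (M + 1))) := by
  rw [continuous_prod_of_discrete_left]
  intro c
  refine Continuous.subtype_mk (continuous_pi fun k => ?_) _
  induction k using Fin.lastCases with
  | last =>
    simp only [Fin.snoc_last]
    exact (continuous_single c).comp SP.continuous_fac
  | cast k =>
    simp only [Fin.snoc_castSucc]
    refine continuous_pi fun g => ?_
    exact SP.continuous_fac.mul (SP.continuous_val k (c⁻¹ * g))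

/-- **The complement of the smaller sphere** is a free cell times a power of the star. -/
noncomputable def SS.homeo : G × SP G (Fin M) ≃ₜ SS.opn G M where
  toFun p := ⟨SS.b p, fun h0 => by
    have h := SS.b_last_apply p p.1
    rw [h0, if_pos rfl] at h
    exact (SP.fac_pos p.2).ne h⟩
  invFun x := (SS.leg x.1, SS.coord x)
  left_inv p := by
    refine Prod.ext (SS.leg_b p) (Subtype.ext (funext fun k => funext fun h => ?_))
    rw [SS.coord_val]
    simp only [SS.mass_b, SS.leg_b, SS.b_castSucc, inv_mul_cancel_left]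
    rw [inv_mul_cancel_left₀ (SP.fac_pos _).ne']
  right_inv x := by
    refine Subtype.ext (Subtype.ext (funext fun k => funext fun h => ?_))
    induction k using Fin.lastCases with
    | last =>
      simp only [SS.b_last_apply, SS.fac_coord]
      split_ifs with h1
      · rw [SS.mass_eq_leg, h1]
      · exact (SS.leg_spec _ _ h1).symm
    | cast k =>
      simp only [SS.b_castSucc, SS.fac_coord, SS.coord_val, mul_inv_cancel_left]
      rw [mul_inv_cancel_left₀ (SS.mass_pos x.2).ne']
  continuous_toFun := SS.continuous_b.subtype_mk _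
  continuous_invFun := by
    refine Continuous.prodMk ?_ (Continuous.subtype_mk (continuous_pi fun k =>
      continuous_pi fun h => ?_) _)
    · rw [continuous_discrete_rng]
      intro c
      have h1 : (fun x : SS.opn G M => SS.leg x.1) ⁻¹' {c} =
          {x : SS.opn G M | x.1.1 (Fin.last M) c ≠ 0} := by
        ext x
        simp only [Set.mem_preimage, Set.mem_singleton_iff, Set.mem_ofPred_eq]
        constructor
        · intro h2
          rw [← h2, ← SS.mass_eq_leg]
          exact (SS.mass_pos x.2).ne'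
        · intro h2
          exact (SS.eq_leg h2).symm
      rw [h1]
      exact (isClosed_eq ((SS.continuous_val _ c).comp continuous_subtype_val)
        continuous_const).isOpen_compl
    · have h1 := fun x : SS.opn G M => SS.coord_eq x k h
      change Continuous fun x : SS.opn G M => (SS.coord x).1 k h
      simp only [h1]
      refine Continuous.mul (Continuous.inv₀ ?_ fun x => pow_ne_zero _ (SS.mass_pos x.2).ne') ?_
      · exact ((SS.continuous_mass _).comp continuous_subtype_val).pow 2
      · exact continuous_finsetSum _ fun c _ =>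
          ((SS.continuous_val _ c).comp continuous_subtype_val).mul
            ((SS.continuous_val _ _).comp continuous_subtype_val)

theorem SS.isOpenEmbedding_b :
    IsOpenEmbedding (SS.b : G × SP G (Fin M) → SS G (Fin (M + 1))) :=
  (SS.isOpen_opn.isOpenEmbedding_subtypeVal).comp SS.homeo.isOpenEmbedding

theorem SS.range_b : Set.range (SS.b : G × SP G (Fin M) → SS G (Fin (M + 1))) =
    {x | x.1 (Fin.last M) ≠ 0} := by
  ext x
  constructor
  · rintro ⟨p, rfl⟩
    exact (SS.homeo p).2
  · intro hx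
    refine ⟨SS.homeo.symm ⟨x, hx⟩, ?_⟩
    have h := SS.homeo.apply_symm_apply (⟨x, hx⟩ : SS.opn G M)
    exact congrArg Subtype.val h

end FinB

section slice

variable {G : Type} [Group G] [Fintype G] [DecidableEq G] {M : ℕ}

/-- The slice: the points whose last factor lies on the leg of `1`. -/
noncomputable def SS.sl (z : SP G (Fin M)) : SS G (Fin (M + 1)) := SS.b (1, z)

theorem SS.smul_sl (g : G) (z : SP G (Fin M)) : g • SS.sl z = SS.b (g, z) := by
  unfold SS.sl
  rw [← SS.b_smul, mul_one]

theorem SS.isOpenEmbedding_sl :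
    IsOpenEmbedding (SS.sl : SP G (Fin M) → SS G (Fin (M + 1))) := by
  letI : TopologicalSpace G := ⊥
  haveI : DiscreteTopology G := ⟨rfl⟩
  refine SS.isOpenEmbedding_b.comp (IsOpenEmbedding.of_continuous_injective_isOpenMap
    (f := fun z : SP G (Fin M) => ((1 : G), z))
    (continuous_const.prodMk continuous_id) (fun a b h => congrArg Prod.snd h) ?_)
  intro C hC
  have h1 : (fun z : SP G (Fin M) => ((1 : G), z)) '' C = {1} ×ˢ C := by
    ext ⟨g, z⟩
    simp only [Set.mem_image, Prod.mk.injEq, Set.mem_prod, Set.mem_singleton_iff]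
    constructor
    · rintro ⟨w, hw, rfl, rfl⟩
      exact ⟨rfl, hw⟩
    · rintro ⟨rfl, hz⟩
      exact ⟨z, hz, rfl, rfl⟩
  rw [h1]
  exact (isOpen_discrete _).prod hC

theorem SS.b_injective : Function.Injective (SS.b : G × SP G (Fin M) → SS G (Fin (M + 1))) := by
  letI : TopologicalSpace G := ⊥
  haveI : DiscreteTopology G := ⟨rfl⟩
  exact SS.isOpenEmbedding_b.injective

theorem SS.eq_one_of_sl {g : G} {z z' : SP G (Fin M)} (h : g • SS.sl z = SS.sl z') : g = 1 := by
  rw [SS.smul_sl] at h
  exact congrArg Prod.fst (SS.b_injective h)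

theorem SS.sl_notMem_range (z : SP G (Fin M)) :
    SS.sl z ∉ Set.range (SS.a : SS G (Fin M) → SS G (Fin (M + 1))) := by
  rw [SS.range_a]
  intro h
  have h1 : (SS.sl z).1 (Fin.last M) = 0 := h
  have h2 := SS.b_last_apply (1, z) 1
  rw [if_pos rfl] at h2
  have h3 : (SS.sl z).1 (Fin.last M) 1 = SP.fac z := h2
  rw [h1] at h3
  exact (SP.fac_pos z).ne h3

theorem SS.exists_smul_sl (x : SS G (Fin (M + 1)))
    (hx : x ∉ Set.range (SS.a : SS G (Fin M) → SS G (Fin (M + 1)))) :
    ∃ (g : G) (z : SP G (Fin M)), g • SS.sl z = x := by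
  letI : TopologicalSpace G := ⊥
  haveI : DiscreteTopology G := ⟨rfl⟩
  rw [SS.range_a] at hx
  have h1 : x ∈ Set.range (SS.b : G × SP G (Fin M) → SS G (Fin (M + 1))) := by
    rw [SS.range_b]; exact hx
  obtain ⟨⟨g, z⟩, rfl⟩ := h1
  exact ⟨g, z, SS.smul_sl g z⟩

end slice

end Vale.Agent.P093.N2.Star
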